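import Vale.Agent.P267.H431.Lift
import Vale.Agent.P267.H158.Cyc

/-!
# P267, package LIFT-COVER (helper431), part 3: the periodic good cover of the cyclic covers
-/

open Set Filter Topology Metric Function
open scoped Uniformity

namespace Vale.Agent.P267.H431

open Vale.Agent.P267.H368 Vale.Agent.P267.H158

variable {E F : Type*} [NormedAddCommGroup E] [NormedSpace ℝ E]
  [NormedAddCommGroup F] [InnerProductSpace ℝ F] {X : Type*} [TopologicalSpace X]
  [ChartedSpace E X] {A : E ≃L[ℝ] F}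

/-- real valued lifts `θ i` of the circle valued map `h` on neighbourhoods `W i` of the stars of a
good cover -/
structure CycCover (G : GoodCover X A) (h : C(X, UnitAddCircle)) where
  /-- the neighbourhoods of the stars -/
  W : Fin G.n → Set X
  isOpen_W : ∀ i, IsOpen (W i)
  star : ∀ i j, (G.U i ∩ G.U j).Nonempty → G.U j ⊆ W i
  closed : ∀ i w, ‖A w - A (G.c i)‖ ≤ G.r → (G.e i).symm w ∈ W i
  /-- the lifts -/
  θ : Fin G.n → X → ℝ
  cont : ∀ i, ContinuousOn (θ i) (W i)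
  toC_θ : ∀ i, ∀ x ∈ W i, toC (θ i x) = h x
  bdd : ∃ B : ℝ, ∀ i, ∀ x ∈ W i, |θ i x| ≤ B

/-- local real lifts of a circle valued map -/
theorem exists_local_lift (h : C(X, UnitAddCircle)) (x : X) : ∃ (V : Set X) (θ : X → ℝ),
    IsOpen V ∧ x ∈ V ∧ ContinuousOn θ V ∧ (∀ y ∈ V, toC (θ y) = h y) ∧
      ∃ B : ℝ, ∀ y ∈ V, |θ y| ≤ B := by
  obtain ⟨t, ht⟩ := surjective_toC (h x)
  obtain ⟨e, hte, he⟩ := isLocalHomeomorph_toC t
  have hx : h x ∈ e.target := by
    rw [← ht, he]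
    exact e.map_source hte
  have h1 : ContinuousOn (fun y => e.symm (h y)) (h ⁻¹' e.target) :=
    e.symm.continuousOn.comp h.continuous.continuousOn fun y hy => hy
  have h2 : IsOpen (h ⁻¹' e.target ∩ (fun y => e.symm (h y)) ⁻¹' ball t 1) :=
    h1.isOpen_inter_preimage (e.open_target.preimage h.continuous) isOpen_ball
  refine ⟨_, fun y => e.symm (h y), h2, ⟨hx, ?_⟩, h1.mono inter_subset_left, ?_, |t| + 1, ?_⟩
  · have h3 : e.symm (h x) = t := by
      rw [← ht, he]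
      exact e.left_inv hte
    rw [mem_preimage, h3]
    exact mem_ball_self one_pos
  · rintro y ⟨hy, -⟩
    rw [he]
    exact e.right_inv hy
  · rintro y ⟨-, hy⟩
    have h4 : |e.symm (h y) - t| < 1 := by
      have := mem_ball.1 hy
      rwa [Real.dist_eq] at this
    have h5 := abs_sub_abs_le_abs_sub (e.symm (h y)) t
    linarith

/-- star refinements -/
theorem exists_star_refinement [CompactSpace X] [T2Space X] (V : X → Set X)
    (hV : ∀ x, IsOpen (V x)) (hx : ∀ x, x ∈ V x) : ∃ (V' : X → Set X) (φ : X → X),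
      (∀ x, IsOpen (V' x)) ∧ (∀ x, x ∈ V' x) ∧
      (∀ x, V' x ⊆ V (φ x)) ∧ ∀ x x', (V' x ∩ V' x').Nonempty → V' x' ⊆ V (φ x) := by
  let _ : UniformSpace X := uniformSpaceOfCompactR1
  obtain ⟨N, hN, hN'⟩ := lebesgue_number_lemma (K := (univ : Set X)) (U := V) isCompact_univ hV
    (fun x _ => mem_iUnion.2 ⟨x, hx x⟩)
  obtain ⟨t, ht, hts, htN⟩ := comp_comp_symm_mem_uniformity_sets hN
  choose φ hφ using fun x : X => hN' x (mem_univ x)
  have hself : ∀ x, (x, x) ∈ t := fun x => refl_mem_uniformity ht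
  have hint : ∀ x y, y ∈ interior (UniformSpace.ball x t) → (x, y) ∈ t := fun x y h =>
    (interior_subset h : y ∈ UniformSpace.ball x t)
  refine ⟨fun x => interior (UniformSpace.ball x t), φ, fun x => isOpen_interior, fun x => ?_,
    fun x => ?_, fun x x' hne => ?_⟩
  · exact mem_interior_iff_mem_nhds.2 (UniformSpace.ball_mem_nhds x ht)
  · intro y hy
    refine hφ x ?_
    refine htN ?_
    have h1 : (x, y) ∈ t := hint _ _ hy
    exact ⟨y, ⟨y, h1, hself y⟩, hself y⟩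
  · intro y hy
    obtain ⟨z, hz, hz'⟩ := hne
    refine hφ x (htN ?_)
    have h1 : (x, z) ∈ t := hint _ _ hz
    have h2 : (x', z) ∈ t := hint _ _ hz'
    have h3 : (x', y) ∈ t := hint _ _ hy
    have h4 : (z, x') ∈ t := hts.symm _ _ h2
    exact ⟨x', ⟨z, h1, h4⟩, h3⟩


theorem exists_cycCover {𝕜 : Type*} [RCLike 𝕜] [NormedSpace 𝕜 E] [IsScalarTower ℝ 𝕜 E]
    [FiniteDimensional ℝ E] {n : WithTop ℕ∞} (hn : 2 ≤ n) [CompactSpace X] [T2Space X]
    [IsManifold (modelWithCornersSelf 𝕜 E) n X] (A : E ≃L[ℝ] F) (h : C(X, UnitAddCircle)) :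
    ∃ G : GoodCover X A, Nonempty (CycCover G h) := by
  choose V θ hV hxV hθc hθ hB using exists_local_lift h
  obtain ⟨V', φ, hV'o, hxV', hV'φ, hV's⟩ := exists_star_refinement V hV hxV
  -- shrink to have the closed balls inside
  have hW : ∀ x, ∃ C ∈ 𝓝 x, IsClosed C ∧ C ⊆ V' x := fun x =>
    exists_mem_nhds_isClosed_subset ((hV'o x).mem_nhds (hxV' x))
  choose C hC hCc hCV using hW
  obtain ⟨G, hG⟩ := exists_goodCover_manifold (𝕜 := 𝕜) hn A (fun x => interior (C x))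
    (fun x => isOpen_interior) (fun x => ⟨x, mem_interior_iff_mem_nhds.2 (hC x)⟩)
  choose κ hκ using hG
  have hUC : ∀ i, G.U i ⊆ C (κ i) := fun i => (hκ i).trans interior_subset
  have hUV' : ∀ i, G.U i ⊆ V' (κ i) := fun i => (hUC i).trans (hCV _)
  choose B hB using hB
  have hclosed : ∀ i w, ‖A w - A (G.c i)‖ ≤ G.r → (G.e i).symm w ∈ C (κ i) := by
    intro i w hw
    have h1 : w ∈ closure (aball A (G.c i) G.r) := by
      have h2 : A w ∈ closure (ball (A (G.c i)) G.r) := by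
        rw [closure_ball _ G.r_pos.ne', mem_closedBall, dist_eq_norm]
        exact hw
      have h3 : aball A (G.c i) G.r = A ⁻¹' ball (A (G.c i)) G.r := by
        ext v
        rw [mem_aball, mem_preimage, mem_ball, dist_eq_norm]
      rw [h3]
      have h4 := A.toHomeomorph.preimage_closure (ball (A (G.c i)) G.r)
      have h5 : w ∈ A.toHomeomorph ⁻¹' closure (ball (A (G.c i)) G.r) := h2
      rw [h4] at h5
      exact h5
    have h6 : ContinuousAt (G.e i).symm w :=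
      (G.e i).symm.continuousAt (G.closed_sub i hw)
    have h7 : (G.e i).symm w ∈ closure ((G.e i).symm '' aball A (G.c i) G.r) :=
      h6.continuousWithinAt.mem_closure_image h1
    exact (hCc (κ i)).closure_subset_iff.2 (hUC i) h7
  have hfin : ∃ B' : ℝ, ∀ i, B (φ (κ i)) ≤ B' := by
    rcases isEmpty_or_nonempty (Fin G.n) with he | he
    · exact ⟨0, fun i => (he.false i).elim⟩
    · obtain ⟨i0, hi0⟩ := Finite.exists_max (fun i => B (φ (κ i)))
      exact ⟨_, hi0⟩
  obtain ⟨B', hB'⟩ := hfin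
  exact ⟨G, ⟨{
    W := fun i => V (φ (κ i))
    isOpen_W := fun i => hV _
    star := fun i j hij => by
      have h1 : (V' (κ i) ∩ V' (κ j)).Nonempty :=
        hij.mono (inter_subset_inter (hUV' i) (hUV' j))
      exact (hUV' j).trans (hV's _ _ h1)
    closed := fun i w hw => hV'φ _ (hCV _ (hclosed i w hw))
    θ := fun i => θ (φ (κ i))
    cont := fun i => hθc _
    toC_θ := fun i => hθ _
    bdd := ⟨B', fun i x hx => (hB _ x hx).trans (hB' i)⟩ }⟩⟩

namespace CycCover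

variable {G : GoodCover X A} {h : C(X, UnitAddCircle)} (D : CycCover G h)

/-! ### the integer cochain of the nerve -/

theorem U_sub_W (i : Fin G.n) : G.U i ⊆ D.W i := by
  refine D.star i i ?_
  rw [inter_self]
  exact GoodCover.nonempty_U G i

theorem U_sub_W' {i j : Fin G.n} (hij : (G.U i ∩ G.U j).Nonempty) : G.U i ⊆ D.W j :=
  D.star j i (by rwa [inter_comm])

theorem exists_c {i j : Fin G.n} (hij : (G.U i ∩ G.U j).Nonempty) :
    ∃ k : ℤ, ∀ x ∈ G.U i ∪ G.U j, D.θ i x = D.θ j x + k := by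
  -- the difference is integer valued on `W i ∩ W j`, which contains both sets
  have hWi : G.U i ∪ G.U j ⊆ D.W i := union_subset (D.U_sub_W i) (D.star i j hij)
  have hWj : G.U i ∪ G.U j ⊆ D.W j := union_subset (D.U_sub_W' hij) (D.U_sub_W j)
  have hpre : IsPreconnected (G.U i ∪ G.U j) := by
    obtain ⟨x, hx⟩ := hij
    exact IsPreconnected.union x hx.1 hx.2 (GoodCover.isPreconnected_U G i)
      (GoodCover.isPreconnected_U G j)
  obtain ⟨x0, hx0⟩ := hij
  have hint : ∀ x ∈ G.U i ∪ G.U j, ∃ k : ℤ, D.θ i x - D.θ j x = k := by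
    intro x hx
    have h1 : toC (D.θ i x) = toC (D.θ j x) := by
      rw [D.toC_θ i x (hWi hx), D.toC_θ j x (hWj hx)]
    obtain ⟨k, hk⟩ := toC_eq_iff.1 h1
    exact ⟨k, by linarith⟩
  obtain ⟨k, hk⟩ := hint x0 (Or.inl hx0.1)
  refine ⟨k, fun x hx => ?_⟩
  have hc : ContinuousOn (fun x => D.θ i x - D.θ j x) (G.U i ∪ G.U j) :=
    ((D.cont i).mono hWi).sub ((D.cont j).mono hWj)
  have h2 : ∀ y ∈ G.U i ∪ G.U j, D.θ i y - D.θ j y = (k : ℝ) := by
    have h3 : IsPreconnected ((fun x => D.θ i x - D.θ j x) '' (G.U i ∪ G.U j)) :=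
      hpre.image _ hc
    have h4 : (fun x => D.θ i x - D.θ j x) '' (G.U i ∪ G.U j) ⊆ range ((↑) : ℤ → ℝ) := by
      rintro _ ⟨y, hy, rfl⟩
      obtain ⟨l, hl⟩ := hint y hy
      exact ⟨l, hl.symm⟩
    have h5 : ((fun x => D.θ i x - D.θ j x) '' (G.U i ∪ G.U j)).Subsingleton := by
      by_contra hns
      rw [Set.not_subsingleton_iff] at hns
      obtain ⟨a, ha, b, hb, hab⟩ := hns.exists_lt
      have h6 := h3.Icc_subset ha hb
      obtain ⟨l, hl⟩ := h4 ha
      obtain ⟨l', hl'⟩ := h4 hb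
      have h7 : (l : ℝ) + 1 / 2 ∈ Icc a b := by
        rw [← hl, ← hl'] at hab ⊢
        have h8 : l < l' := by exact_mod_cast hab
        have h9 : (l : ℝ) + 1 ≤ l' := by exact_mod_cast h8
        constructor <;> linarith
      obtain ⟨q, hq⟩ := h4 (h6 h7)
      have h8 : (2 : ℝ) * q = 2 * l + 1 := by linarith
      have h9 : (2 : ℤ) * q = 2 * l + 1 := by exact_mod_cast h8
      omega
    intro y hy
    have := h5 (mem_image_of_mem _ hy) (mem_image_of_mem _ (Or.inl hx0.1))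
    rw [hk] at this
    exact this
  have := h2 x hx
  linarith

open Classical in
/-- the integer cochain: `θ i = θ j + c i j` on `G.U i ∪ G.U j` when the two sets meet -/
noncomputable def c (i j : Fin G.n) : ℤ :=
  if hij : (G.U i ∩ G.U j).Nonempty then (D.exists_c hij).choose else 0

theorem θ_eq {i j : Fin G.n} (hij : (G.U i ∩ G.U j).Nonempty) {x : X}
    (hx : x ∈ G.U i ∪ G.U j) : D.θ i x = D.θ j x + D.c i j := by
  rw [c, dif_pos hij]
  exact (D.exists_c hij).choose_spec x hx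

theorem θ_eq_of_mem {i j : Fin G.n} {x : X} (hi : x ∈ G.U i) (hj : x ∈ G.U j) :
    D.θ i x = D.θ j x + D.c i j := D.θ_eq ⟨x, hi, hj⟩ (Or.inl hi)

theorem c_self (i : Fin G.n) : D.c i i = 0 := by
  obtain ⟨x, hx⟩ := GoodCover.nonempty_U G i
  have h1 := D.θ_eq_of_mem hx hx
  have h2 : (D.c i i : ℝ) = 0 := by linarith
  exact_mod_cast h2

theorem c_add {i j k : Fin G.n} (hne : (G.U i ∩ G.U j ∩ G.U k).Nonempty) :
    D.c i j + D.c j k = D.c i k := by
  obtain ⟨x, ⟨hi, hj⟩, hk⟩ := hne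
  have h1 := D.θ_eq_of_mem hi hj
  have h2 := D.θ_eq_of_mem hj hk
  have h3 := D.θ_eq_of_mem hi hk
  have h4 : (D.c i j : ℝ) + D.c j k = D.c i k := by linarith
  exact_mod_cast h4

theorem c_symm (i j : Fin G.n) : D.c j i = - D.c i j := by
  by_cases hij : (G.U i ∩ G.U j).Nonempty
  · obtain ⟨x, hi, hj⟩ := hij
    have h1 := D.θ_eq_of_mem hi hj
    have h2 := D.θ_eq_of_mem hj hi
    have h3 : (D.c j i : ℝ) = - D.c i j := by linarith
    exact_mod_cast h3
  · have hji : ¬ (G.U j ∩ G.U i).Nonempty := by rwa [inter_comm]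
    rw [c, c, dif_neg hij, dif_neg hji, neg_zero]

/-- the width of the cover -/
theorem exists_width : ∃ w : ℕ, ∀ i j, |D.c i j| ≤ w := by
  rcases isEmpty_or_nonempty (Fin G.n) with he | he
  · exact ⟨0, fun i => (he.false i).elim⟩
  · obtain ⟨a, ha⟩ := Finite.exists_max (fun a : Fin G.n × Fin G.n => |D.c a.1 a.2|)
    refine ⟨(D.c a.1 a.2).natAbs, fun i j => ?_⟩
    rw [Int.natCast_natAbs]
    exact ha (i, j)

/-! ### the infinite cyclic cover -/

/-- the sheets over `W i` in the infinite cyclic cover -/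
def S (i : Fin G.n) (k : ℤ) : Set (Cov h) :=
  {z | Cov.p z ∈ D.W i ∧ Cov.f z = D.θ i (Cov.p z) + k}

theorem mem_S {i : Fin G.n} {k : ℤ} {z : Cov h} :
    z ∈ D.S i k ↔ Cov.p z ∈ D.W i ∧ Cov.f z = D.θ i (Cov.p z) + k := Iff.rfl

theorem exists_f_eq {i : Fin G.n} {z : Cov h} (hz : Cov.p z ∈ D.W i) :
    ∃ k : ℤ, Cov.f z = D.θ i (Cov.p z) + k := by
  have h1 : toC (Cov.f z) = toC (D.θ i (Cov.p z)) := by
    rw [Cov.toC_f, D.toC_θ i _ hz]
  exact toC_eq_iff.1 h1

theorem S_eq (i : Fin G.n) (k : ℤ) : D.S i k =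
    Cov.p ⁻¹' D.W i ∩ (fun z => Cov.f z - D.θ i (Cov.p z)) ⁻¹' ball (k : ℝ) (1 / 2) := by
  ext z
  constructor
  · rintro ⟨h1, h2⟩
    refine ⟨h1, ?_⟩
    rw [mem_preimage, h2, add_sub_cancel_left]
    exact mem_ball_self (by norm_num)
  · rintro ⟨h1, h2⟩
    refine ⟨h1, ?_⟩
    obtain ⟨l, hl⟩ := D.exists_f_eq h1
    have h3 : Cov.f z - D.θ i (Cov.p z) = l := by linarith
    rw [mem_preimage, h3, mem_ball, Real.dist_eq] at h2
    have h4 : |l - k| < 1 := by
      have h5 : ((|l - k| : ℤ) : ℝ) < 1 := by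
        push_cast
        linarith
      exact_mod_cast h5
    have h6 : l = k := by
      have := abs_lt.1 h4
      omega
    rw [← h6]
    exact hl

theorem isOpen_S (i : Fin G.n) (k : ℤ) : IsOpen (D.S i k) := by
  rw [D.S_eq]
  refine ContinuousOn.isOpen_inter_preimage ?_ ((D.isOpen_W i).preimage Cov.continuous_p)
    isOpen_ball
  refine Cov.continuous_f.continuousOn.sub ?_
  exact (D.cont i).comp Cov.continuous_p.continuousOn fun z hz => hz

/-- the periodic good cover of the infinite cyclic cover -/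
def sheets : Sheets (Cov.p : Cov h → X) G ℤ where
  W := D.W
  isOpen_W := D.isOpen_W
  star := D.star
  S := D.S
  isOpen_S := D.isOpen_S
  inj := by
    rintro i k z ⟨-, hz⟩ w ⟨-, hw⟩ e
    refine Cov.ext e ?_
    rw [hz, hw, e]
  image := by
    intro i k
    ext x
    constructor
    · rintro ⟨z, hz, rfl⟩
      exact hz.1
    · intro hx
      refine ⟨Cov.mk x (D.θ i x + k) ?_, ⟨?_, ?_⟩, rfl⟩
      · rw [toC_add, toC_intCast, add_zero, D.toC_θ i x hx]
      · exact hx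
      · rw [Cov.f_mk, Cov.p_mk]
  union := by
    intro i
    ext z
    rw [mem_iUnion]
    constructor
    · intro hz
      obtain ⟨k, hk⟩ := D.exists_f_eq hz
      exact ⟨k, hz, hk⟩
    · rintro ⟨k, hk⟩
      exact hk.1
  disj := by
    intro i k l hkl
    rw [Function.onFun, Set.disjoint_left]
    rintro z ⟨-, hz⟩ ⟨-, hz'⟩
    apply hkl
    have h1 : (k : ℝ) = l := by linarith
    exact_mod_cast h1

/-- the member `U i k` of the periodic good cover -/
abbrev U (i : Fin G.n) (k : ℤ) : Set (Cov h) := D.sheets.U i k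

theorem mem_U {i : Fin G.n} {k : ℤ} {z : Cov h} :
    z ∈ D.U i k ↔ Cov.p z ∈ G.U i ∧ Cov.f z = D.θ i (Cov.p z) + k := by
  constructor
  · rintro ⟨h1, h2⟩
    exact ⟨h2, h1.2⟩
  · rintro ⟨h1, h2⟩
    exact ⟨⟨D.U_sub_W i h1, h2⟩, h1⟩

theorem shift_mem_S {i : Fin G.n} {k l : ℤ} {z : Cov h} :
    Cov.shift l z ∈ D.S i (k + l) ↔ z ∈ D.S i k := by
  rw [mem_S, mem_S, Cov.p_shift, Cov.f_shift]
  push_cast
  constructor <;> rintro ⟨h1, h2⟩ <;> exact ⟨h1, by linarith⟩

theorem shift_mem_U {i : Fin G.n} {k l : ℤ} {z : Cov h} :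
    Cov.shift l z ∈ D.U i (k + l) ↔ z ∈ D.U i k := by
  rw [mem_U, mem_U, Cov.p_shift, Cov.f_shift]
  push_cast
  constructor <;> rintro ⟨h1, h2⟩ <;> exact ⟨h1, by linarith⟩

theorem shift_image_U (i : Fin G.n) (k l : ℤ) : Cov.shift l '' D.U i k = D.U i (k + l) := by
  ext z
  constructor
  · rintro ⟨w, hw, rfl⟩
    exact D.shift_mem_U.2 hw
  · intro hz
    refine ⟨Cov.shift (-l) z, ?_, Cov.shift_shift_neg l z⟩
    rw [← D.shift_mem_U (l := l), Cov.shift_shift_neg]
    exact hz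

theorem γ_image_U (i : Fin G.n) (k : ℤ) : Cov.γ '' D.U i k = D.U i (k + 1) :=
  D.shift_image_U i k 1

/-- the intersection pattern of the periodic cover -/
theorem inter_nonempty_iff {s : Finset (Fin G.n × ℤ)} (hs : s.Nonempty) :
    (⋂ b ∈ s, D.U b.1 b.2).Nonempty ↔
      (⋂ b ∈ s, G.U b.1).Nonempty ∧ ∀ a ∈ s, ∀ b ∈ s, b.2 - a.2 = D.c a.1 b.1 := by
  constructor
  · rintro ⟨z, hz⟩
    simp only [mem_iInter] at hz
    refine ⟨⟨Cov.p z, ?_⟩, fun a ha b hb => ?_⟩
    · simp only [mem_iInter]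
      exact fun b hb => (D.mem_U.1 (hz b hb)).1
    · have h1 := D.mem_U.1 (hz a ha)
      have h2 := D.mem_U.1 (hz b hb)
      have h3 := D.θ_eq_of_mem h1.1 h2.1
      have h4 : (b.2 : ℝ) - a.2 = D.c a.1 b.1 := by linarith
      exact_mod_cast h4
  · rintro ⟨⟨x, hx⟩, hc⟩
    simp only [mem_iInter] at hx
    obtain ⟨a, ha⟩ := hs
    have h1 : x ∈ D.W a.1 := D.U_sub_W _ (hx a ha)
    refine ⟨Cov.mk x (D.θ a.1 x + a.2) ?_, ?_⟩
    · rw [toC_add, toC_intCast, add_zero, D.toC_θ _ x h1]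
    · simp only [mem_iInter]
      intro b hb
      rw [mem_U, Cov.p_mk, Cov.f_mk]
      refine ⟨hx b hb, ?_⟩
      have h2 := D.θ_eq_of_mem (hx a ha) (hx b hb)
      have h3 : ((b.2 - a.2 : ℤ) : ℝ) = D.c a.1 b.1 := by rw [hc a ha b hb]
      push_cast at h3
      linarith

theorem inter_two_nonempty_iff {i j : Fin G.n} {k l : ℤ} :
    (D.U i k ∩ D.U j l).Nonempty ↔ (G.U i ∩ G.U j).Nonempty ∧ l - k = D.c i j := by
  constructor
  · rintro ⟨z, hz, hz'⟩
    have h1 := D.mem_U.1 hz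
    have h2 := D.mem_U.1 hz'
    refine ⟨⟨Cov.p z, h1.1, h2.1⟩, ?_⟩
    have h3 := D.θ_eq_of_mem h1.1 h2.1
    have h4 : (l : ℝ) - k = D.c i j := by linarith
    exact_mod_cast h4
  · rintro ⟨⟨x, hi, hj⟩, hc⟩
    refine ⟨Cov.mk x (D.θ i x + k) ?_, ?_, ?_⟩
    · rw [toC_add, toC_intCast, add_zero, D.toC_θ _ x (D.U_sub_W i hi)]
    · rw [mem_U]
      exact ⟨hi, rfl⟩
    · rw [mem_U]
      refine ⟨hj, ?_⟩
      have h2 := D.θ_eq_of_mem hi hj
      have h3 : ((l - k : ℤ) : ℝ) = D.c i j := by rw [hc]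
      push_cast at h3
      change D.θ i x + k = D.θ j x + l
      linarith

/-- the height on `S i k` -/
theorem exists_height_bound : ∃ B : ℝ, ∀ i k, ∀ z ∈ D.S i k, |Cov.f z - k| ≤ B := by
  obtain ⟨B, hB⟩ := D.bdd
  refine ⟨B, fun i k z hz => ?_⟩
  have h1 : Cov.f z - k = D.θ i (Cov.p z) := by
    have := hz.2
    linarith
  rw [h1]
  exact hB i _ hz.1

theorem locallyFinite_S : LocallyFinite (fun a : Fin G.n × ℤ => D.S a.1 a.2) := by
  obtain ⟨B, hB⟩ := D.exists_height_bound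
  intro z
  refine ⟨Cov.f ⁻¹' ball (Cov.f z) 1, (isOpen_ball.preimage Cov.continuous_f).mem_nhds
    (mem_ball_self one_pos), ?_⟩
  obtain ⟨N, hN⟩ := exists_nat_gt (|Cov.f z| + 1 + B)
  refine ((finite_univ (α := Fin G.n)).prod (Set.finite_Icc (-(N : ℤ)) N)).subset ?_
  rintro ⟨i, k⟩ ⟨w, hw, hw'⟩
  refine ⟨mem_univ _, ?_⟩
  have h1 := hB i k w hw
  have h2 : |Cov.f w - Cov.f z| < 1 := by
    have := mem_ball.1 hw'
    rwa [Real.dist_eq] at this
  have h3 : |(k : ℝ)| ≤ N := by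
    have h4 := abs_le.1 h1
    have h5 := abs_lt.1 h2
    have h6 := neg_abs_le (Cov.f z)
    have h7 := le_abs_self (Cov.f z)
    rw [abs_le]
    constructor <;> linarith [h4.1, h4.2, h5.1, h5.2]
  rw [abs_le] at h3
  constructor
  · exact_mod_cast h3.1
  · exact_mod_cast h3.2

theorem locallyFinite_U : LocallyFinite (fun a : Fin G.n × ℤ => D.U a.1 a.2) :=
  D.locallyFinite_S.subset fun _ => inter_subset_left

/-- the members of the cover which meet a compact set -/
theorem finite_meet {C : Set (Cov h)} (hC : IsCompact C) :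
    {a : Fin G.n × ℤ | (D.S a.1 a.2 ∩ C).Nonempty}.Finite :=
  D.locallyFinite_S.finite_nonempty_inter_compact hC

theorem isCompact_closure_U [CompactSpace X] (i : Fin G.n) (k : ℤ) :
    IsCompact (closure (D.U i k)) := by
  obtain ⟨B, hB⟩ := D.exists_height_bound
  have h0 : IsClosed {z : Cov h | (k : ℝ) - B ≤ Cov.f z ∧ Cov.f z ≤ k + B} :=
    (isClosed_le continuous_const Cov.continuous_f).inter
      (isClosed_le Cov.continuous_f continuous_const)
  refine (Cov.isCompact_slab (h := h) (k - B) (k + B)).of_isClosed_subset isClosed_closure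
    (closure_minimal ?_ h0)
  intro z hz
  have h1 := abs_le.1 (hB i k z hz.1)
  constructor <;> linarith [h1.1, h1.2]

end CycCover

end Vale.Agent.P267.H431
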