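import Vale.Agent.P267.H431.Cyclic

/-!
# P267, package LIFT-COVER (helper431), part 4: the good covers of the finite cyclic covers
-/

open Set Filter Topology Metric Function

namespace Vale.Agent.P267.H431

open Vale.Agent.P267.H368 Vale.Agent.P267.H158

variable {E F : Type*} [NormedAddCommGroup E] [NormedSpace ℝ E]
  [NormedAddCommGroup F] [InnerProductSpace ℝ F] {X : Type*} [TopologicalSpace X]
  [ChartedSpace E X] {A : E ≃L[ℝ] F}

namespace CycCover

variable {G : GoodCover X A} {h : C(X, UnitAddCircle)} (D : CycCover G h) {m : ℕ} [NeZero m]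

theorem toC_div_eq_iff {t : ℝ} {k l : ℤ} :
    toC ((t + k) / m) = toC ((t + l) / m) ↔ (k : ZMod m) = l := by
  have hm := Cov.natCast_ne_zero' m
  rw [toC_eq_iff, ZMod.intCast_eq_intCast_iff]
  constructor
  · rintro ⟨q, hq⟩
    have h1 : (k : ℝ) = l + m * q := by
      field_simp at hq
      linarith
    have h2 : k = l + m * q := by exact_mod_cast h1
    rw [h2]
    exact Int.add_mul_emod_self_left l m q
  · intro hkl
    obtain ⟨q, hq⟩ := (Int.modEq_iff_dvd.1 hkl.symm)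
    refine ⟨q, ?_⟩
    have h1 : ((k - l : ℤ) : ℝ) = m * q := by
      rw [hq]
      push_cast
      ring
    push_cast at h1
    field_simp
    linarith

/-- the sheets over `W i` in the `m`-fold cyclic cover -/
def SM (m : ℕ) [NeZero m] (i : Fin G.n) (κ : ZMod m) : Set (CovM h m) :=
  {w | CovM.p w ∈ D.W i ∧ ∃ k : ℤ, (k : ZMod m) = κ ∧ CovM.c w = toC ((D.θ i (CovM.p w) + k) / m)}

theorem toM_mem_SM {i : Fin G.n} {κ : ZMod m} {z : Cov h} :
    Cov.toM m z ∈ D.SM m i κ ↔ ∃ k : ℤ, (k : ZMod m) = κ ∧ z ∈ D.S i k := by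
  constructor
  · rintro ⟨h1, k, hk, h2⟩
    rw [Cov.p_toM] at h1 h2
    rw [Cov.c_toM] at h2
    obtain ⟨l, hl⟩ := D.exists_f_eq h1
    rw [hl, toC_div_eq_iff] at h2
    exact ⟨l, h2.trans hk, h1, hl⟩
  · rintro ⟨k, hk, h1, h2⟩
    refine ⟨h1, k, hk, ?_⟩
    rw [Cov.p_toM, Cov.c_toM, h2]

theorem toM_image_S (i : Fin G.n) (k : ℤ) : Cov.toM m '' D.S i k = D.SM m i (k : ZMod m) := by
  ext w
  constructor
  · rintro ⟨z, hz, rfl⟩
    exact D.toM_mem_SM.2 ⟨k, rfl, hz⟩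
  · rintro ⟨h1, k', hk', h2⟩
    have h3 : toC (D.θ i (CovM.p w) + k) = h (CovM.p w) := by
      rw [toC_add, toC_intCast, add_zero, D.toC_θ i _ h1]
    refine ⟨Cov.mk (CovM.p w) (D.θ i (CovM.p w) + k) h3, ⟨h1, rfl⟩, CovM.ext rfl ?_⟩
    rw [Cov.c_toM, Cov.f_mk, h2, toC_div_eq_iff, hk']

theorem toM_preimage_SM (i : Fin G.n) (κ : ZMod m) :
    Cov.toM m ⁻¹' D.SM m i κ = ⋃ k ∈ {k : ℤ | (k : ZMod m) = κ}, D.S i k := by
  ext z
  rw [mem_preimage, D.toM_mem_SM, mem_iUnion₂]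
  simp only [exists_prop]
  rfl

/-- the good cover of the `m`-fold cyclic cover, as sheets -/
def sheetsM (m : ℕ) [NeZero m] : Sheets (CovM.p : CovM h m → X) G (ZMod m) where
  W := D.W
  isOpen_W := D.isOpen_W
  star := D.star
  S := D.SM m
  isOpen_S := by
    intro i κ
    obtain ⟨k, rfl⟩ := ZMod.intCast_surjective κ
    rw [← D.toM_image_S]
    exact Cov.isLocalHomeomorph_toM.isOpenMap _ (D.isOpen_S i k)
  inj := by
    rintro i κ z ⟨-, k, hk, hz⟩ w ⟨-, l, hl, hw⟩ e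
    refine CovM.ext e ?_
    rw [hz, hw, e, toC_div_eq_iff, hk, hl]
  image := by
    intro i κ
    obtain ⟨k, rfl⟩ := ZMod.intCast_surjective κ
    rw [← D.toM_image_S, image_image]
    exact D.sheets.image i k
  union := by
    intro i
    ext w
    rw [mem_iUnion]
    constructor
    · intro hw
      obtain ⟨z, rfl⟩ := Cov.surjective_toM (m := m) w
      obtain ⟨k, hk⟩ := D.exists_f_eq (z := z) hw
      exact ⟨k, D.toM_mem_SM.2 ⟨k, rfl, hw, hk⟩⟩
    · rintro ⟨k, hk⟩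
      exact hk.1
  disj := by
    intro i κ κ' hne
    rw [Function.onFun, Set.disjoint_left]
    rintro w ⟨-, k, hk, hz⟩ ⟨-, l, hl, hz'⟩
    apply hne
    rw [hz, toC_div_eq_iff, hk, hl] at hz'
    exact hz'

/-- the member `U i κ` of the good cover of the finite cyclic cover -/
abbrev UM (m : ℕ) [NeZero m] (i : Fin G.n) (κ : ZMod m) : Set (CovM h m) := (D.sheetsM m).U i κ

theorem toM_mem_UM {i : Fin G.n} {κ : ZMod m} {z : Cov h} :
    Cov.toM m z ∈ D.UM m i κ ↔ ∃ k : ℤ, (k : ZMod m) = κ ∧ z ∈ D.U i k := by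
  constructor
  · rintro ⟨h1, h2⟩
    obtain ⟨k, hk, h3⟩ := D.toM_mem_SM.1 h1
    exact ⟨k, hk, h3, h2⟩
  · rintro ⟨k, hk, h1, h2⟩
    exact ⟨D.toM_mem_SM.2 ⟨k, hk, h1⟩, h2⟩

theorem toM_image_U (i : Fin G.n) (k : ℤ) : Cov.toM m '' D.U i k = D.UM m i (k : ZMod m) := by
  ext w
  constructor
  · rintro ⟨z, hz, rfl⟩
    exact D.toM_mem_UM.2 ⟨k, rfl, hz⟩
  · rintro ⟨h1, h2⟩
    change w ∈ D.SM m i k at h1
    rw [← D.toM_image_S] at h1
    obtain ⟨z, hz, rfl⟩ := h1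
    exact ⟨z, ⟨hz, h2⟩, rfl⟩

theorem toM_preimage_UM (i : Fin G.n) (κ : ZMod m) :
    Cov.toM m ⁻¹' D.UM m i κ = ⋃ k ∈ {k : ℤ | (k : ZMod m) = κ}, D.U i k := by
  ext z
  rw [mem_preimage, D.toM_mem_UM, mem_iUnion₂]
  simp only [exists_prop]
  rfl

/-- the intersection pattern of the cover of the finite cyclic cover -/
theorem interM_nonempty_iff {s : Finset (Fin G.n × ZMod m)} (hs : s.Nonempty) :
    (⋂ b ∈ s, D.UM m b.1 b.2).Nonempty ↔
      (⋂ b ∈ s, G.U b.1).Nonempty ∧ ∀ a ∈ s, ∀ b ∈ s, b.2 - a.2 = (D.c a.1 b.1 : ZMod m) := by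
  constructor
  · rintro ⟨w, hw⟩
    simp only [mem_iInter] at hw
    obtain ⟨z, rfl⟩ := Cov.surjective_toM (m := m) w
    refine ⟨⟨Cov.p z, ?_⟩, fun a ha b hb => ?_⟩
    · simp only [mem_iInter]
      exact fun b hb => (hw b hb).2
    · obtain ⟨k, hk, h1⟩ := D.toM_mem_UM.1 (hw a ha)
      obtain ⟨l, hl, h2⟩ := D.toM_mem_UM.1 (hw b hb)
      have h3 := (D.inter_two_nonempty_iff.1 ⟨z, h1, h2⟩).2
      rw [← hk, ← hl, ← h3]
      push_cast
      rfl
  · rintro ⟨⟨x, hx⟩, hc⟩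
    simp only [mem_iInter] at hx
    obtain ⟨a, ha⟩ := hs
    obtain ⟨k, hk⟩ := ZMod.intCast_surjective a.2
    have h1 : x ∈ Cov.p '' D.U a.1 k := by
      have := D.sheets.image_U a.1 k
      rw [this]
      exact hx a ha
    obtain ⟨z, hz, rfl⟩ := h1
    refine ⟨Cov.toM m z, ?_⟩
    simp only [mem_iInter]
    intro b hb
    rw [D.toM_mem_UM]
    refine ⟨k + D.c a.1 b.1, ?_, ?_⟩
    · have h2 := hc a ha b hb
      push_cast
      rw [← h2, hk]
      ring
    · have h3 := D.θ_eq_of_mem (hx a ha) (hx b hb)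
      rw [D.mem_U] at hz ⊢
      refine ⟨hx b hb, ?_⟩
      rw [hz.2, h3]
      push_cast
      ring

theorem interM_two_nonempty_iff {i j : Fin G.n} {κ κ' : ZMod m} :
    (D.UM m i κ ∩ D.UM m j κ').Nonempty ↔
      (G.U i ∩ G.U j).Nonempty ∧ κ' - κ = (D.c i j : ZMod m) := by
  constructor
  · rintro ⟨w, hw, hw'⟩
    obtain ⟨z, rfl⟩ := Cov.surjective_toM (m := m) w
    obtain ⟨k, hk, h1⟩ := D.toM_mem_UM.1 hw
    obtain ⟨l, hl, h2⟩ := D.toM_mem_UM.1 hw'
    have h3 := (D.inter_two_nonempty_iff.1 ⟨z, h1, h2⟩)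
    refine ⟨h3.1, ?_⟩
    rw [← hk, ← hl, ← h3.2]
    push_cast
    rfl
  · rintro ⟨h1, h2⟩
    obtain ⟨k, hk⟩ := ZMod.intCast_surjective κ
    have h3 : (D.U i k ∩ D.U j (k + D.c i j)).Nonempty :=
      D.inter_two_nonempty_iff.2 ⟨h1, by ring⟩
    obtain ⟨z, hz, hz'⟩ := h3
    refine ⟨Cov.toM m z, D.toM_mem_UM.2 ⟨k, hk, hz⟩, D.toM_mem_UM.2 ⟨_, ?_, hz'⟩⟩
    push_cast
    rw [← h2, hk]
    ring

/-- the numbering of the members of the good cover of the finite cyclic cover -/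
noncomputable def idx (n m : ℕ) [NeZero m] : Fin (n * m) ≃ Fin n × ZMod m :=
  finProdFinEquiv.symm.trans ((Equiv.refl _).prodCongr (ZMod.finEquiv m).toEquiv)

instance [Nonempty X] : Nonempty (Cov h) :=
  ⟨(Cov.surjective_p (h := h) (Classical.arbitrary X)).choose⟩

instance [Nonempty X] : Nonempty (CovM h m) :=
  ⟨(CovM.surjective_p (h := h) (m := m) (Classical.arbitrary X)).choose⟩

/-- the good cover of the `m`-fold cyclic cover, as a `GoodCover` for the pulled back atlas -/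
noncomputable def goodCoverM (m : ℕ) [NeZero m] [Nonempty X] :
    letI := pullCS E (CovM.isLocalHomeomorph_p (h := h) (m := m))
    GoodCover (CovM h m) A :=
  (D.sheetsM m).goodCover CovM.isLocalHomeomorph_p D.closed (idx G.n m)

theorem goodCoverM_U [Nonempty X] (a : Fin (G.n * m)) :
    letI := pullCS E (CovM.isLocalHomeomorph_p (h := h) (m := m))
    (D.goodCoverM m).U a = D.UM m (idx G.n m a).1 (idx G.n m a).2 :=
  (D.sheetsM m).cball_eq_U CovM.isLocalHomeomorph_p _ _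

end CycCover

end Vale.Agent.P267.H431
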