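import Vale.Agent.P267.H431.Part
import Vale.Agent.P267.H82.Cut
import Vale.Agent.P267.H995.Pz

/-!
# P267, package LIFT-LB (helper431), part 1: the nerve of the periodic good cover and its cochains
-/

set_option linter.unusedSectionVars false

open Set Filter Topology Metric Function

namespace Vale.Agent.P267.H431

open Vale.Agent.P267.H368 Vale.Agent.P267.H158 Vale.Agent.P267.H82 Vale.Agent.P267.H995

variable {E F : Type*} [NormedAddCommGroup E] [NormedSpace ℝ E]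
  [NormedAddCommGroup F] [InnerProductSpace ℝ F] {X : Type*} [TopologicalSpace X]
  [ChartedSpace E X] {A : E ≃L[ℝ] F}

namespace CycCover

variable {G : GoodCover X A} {h : C(X, UnitAddCircle)} (D : CycCover G h)

/-! ### triangles and tetrahedra -/

theorem mem_U_of_mem {i j : Fin G.n} {k l : ℤ} {z : Cov h} (hi : z ∈ D.U i k)
    (hj : Cov.p z ∈ G.U j) (hl : l - k = D.c i j) : z ∈ D.U j l := by
  rw [D.mem_U] at hi ⊢
  refine ⟨hj, ?_⟩
  have h2 := D.θ_eq_of_mem hi.1 hj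
  have h3 : ((l - k : ℤ) : ℝ) = D.c i j := by rw [hl]
  push_cast at h3
  rw [hi.2, h2]
  linarith

theorem sub_eq_c {i j : Fin G.n} {k l : ℤ} {z : Cov h} (hi : z ∈ D.U i k) (hj : z ∈ D.U j l) :
    l - k = D.c i j := (D.inter_two_nonempty_iff.1 ⟨z, hi, hj⟩).2

/-- the triangle `a b c` belongs to the nerve of the periodic cover -/
def tri3 (a b c : Fin G.n × ℤ) : Prop :=
  (D.U a.1 a.2 ∩ D.U b.1 b.2 ∩ D.U c.1 c.2).Nonempty

/-- the tetrahedron `a b c d` belongs to the nerve of the periodic cover -/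
def tet4 (a b c d : Fin G.n × ℤ) : Prop :=
  (D.U a.1 a.2 ∩ D.U b.1 b.2 ∩ D.U c.1 c.2 ∩ D.U d.1 d.2).Nonempty

theorem tri3_shift (k : ℤ) (a b c : Fin G.n × ℤ) :
    D.tri3 (sh k a) (sh k b) (sh k c) ↔ D.tri3 a b c := by
  constructor
  · rintro ⟨z, ⟨ha, hb⟩, hc⟩
    refine ⟨Cov.shift (-k) z, ⟨?_, ?_⟩, ?_⟩
    · rw [← D.shift_mem_U (l := k), Cov.shift_shift_neg]
      exact ha
    · rw [← D.shift_mem_U (l := k), Cov.shift_shift_neg]
      exact hb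
    · rw [← D.shift_mem_U (l := k), Cov.shift_shift_neg]
      exact hc
  · rintro ⟨z, ⟨ha, hb⟩, hc⟩
    exact ⟨Cov.shift k z, ⟨D.shift_mem_U.2 ha, D.shift_mem_U.2 hb⟩, D.shift_mem_U.2 hc⟩

theorem tet4_shift (k : ℤ) (a b c d : Fin G.n × ℤ) :
    D.tet4 (sh k a) (sh k b) (sh k c) (sh k d) ↔ D.tet4 a b c d := by
  constructor
  · rintro ⟨z, ⟨⟨ha, hb⟩, hc⟩, hd⟩
    refine ⟨Cov.shift (-k) z, ⟨⟨?_, ?_⟩, ?_⟩, ?_⟩
    · rw [← D.shift_mem_U (l := k), Cov.shift_shift_neg]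
      exact ha
    · rw [← D.shift_mem_U (l := k), Cov.shift_shift_neg]
      exact hb
    · rw [← D.shift_mem_U (l := k), Cov.shift_shift_neg]
      exact hc
    · rw [← D.shift_mem_U (l := k), Cov.shift_shift_neg]
      exact hd
  · rintro ⟨z, ⟨⟨ha, hb⟩, hc⟩, hd⟩
    exact ⟨Cov.shift k z, ⟨⟨D.shift_mem_U.2 ha, D.shift_mem_U.2 hb⟩, D.shift_mem_U.2 hc⟩,
      D.shift_mem_U.2 hd⟩

theorem tet4_faces (a b c d : Fin G.n × ℤ) (H : D.tet4 a b c d) :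
    D.tri3 b c d ∧ D.tri3 a c d ∧ D.tri3 a b d ∧ D.tri3 a b c := by
  obtain ⟨z, ⟨⟨ha, hb⟩, hc⟩, hd⟩ := H
  exact ⟨⟨z, ⟨hb, hc⟩, hd⟩, ⟨z, ⟨ha, hc⟩, hd⟩, ⟨z, ⟨ha, hb⟩, hd⟩, ⟨z, ⟨ha, hb⟩, hc⟩⟩

/-- the width of the nerve -/
noncomputable def wd : ℕ := D.exists_width.choose

theorem abs_c_le (i j : Fin G.n) : |D.c i j| ≤ D.wd := D.exists_width.choose_spec i j

theorem abs_sub_le_wd {i j : Fin G.n} {k l : ℤ} {z : Cov h} (hi : z ∈ D.U i k)
    (hj : z ∈ D.U j l) : |l - k| ≤ D.wd := by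
  rw [D.sub_eq_c hi hj]
  exact D.abs_c_le i j

/-- **the nerve of the periodic good cover**, in the form used by helper82 -/
noncomputable def nerve : PNerve (Fin G.n) where
  T := D.tri3
  w := D.wd
  shift := D.tri3_shift
  width a b c := by
    rintro ⟨z, ⟨ha, hb⟩, hc⟩
    exact ⟨D.abs_sub_le_wd ha hb, D.abs_sub_le_wd hb hc, D.abs_sub_le_wd ha hc⟩

@[simp] theorem nerve_T : D.nerve.T = D.tri3 := rfl

@[simp] theorem nerve_w : D.nerve.w = D.wd := rfl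

theorem isCoc_iff {R : Type*} [AddCommGroup R]
    {e : Fin G.n × ℤ → Fin G.n × ℤ → Fin G.n × ℤ → R} :
    IsCoc (fun a : Fin G.n × ℤ => D.U a.1 a.2) e ↔
      ∀ a b c d, D.tet4 a b c d → e b c d - e a c d + e a b d - e a b c = 0 := by
  constructor
  · rintro H a b c d ⟨z, ⟨⟨ha, hb⟩, hc⟩, hd⟩
    exact H a b c d z ha hb hc hd
  · intro H a b c d z ha hb hc hd
    exact H a b c d ⟨z, ⟨⟨ha, hb⟩, hc⟩, hd⟩

/-! ### the finite cyclic covers -/

variable {m : ℕ} [NeZero m]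

/-- the vertices of the nerve of the `m`-fold cover -/
def pr (m : ℕ) (a : Fin G.n × ℤ) : Fin G.n × ZMod m := (a.1, (a.2 : ZMod m))

@[simp] theorem pr_fst (a : Fin G.n × ℤ) : (pr m a).1 = a.1 := rfl

@[simp] theorem pr_snd (a : Fin G.n × ℤ) : (pr m a).2 = (a.2 : ZMod m) := rfl

theorem pr_sh (a : Fin G.n × ℤ) : pr m (sh m a) = pr m a := by
  refine Prod.ext rfl ?_
  simp [pr]

theorem pr_sh_mul (k : ℤ) (a : Fin G.n × ℤ) : pr m (sh (k * m) a) = pr m a := by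
  refine Prod.ext rfl ?_
  simp [pr]

theorem pr_eq_iff {a b : Fin G.n × ℤ} : pr m a = pr m b ↔ ∃ k : ℤ, a = sh (k * m) b := by
  constructor
  · intro H
    have h1 : (pr m a).1 = (pr m b).1 := by rw [H]
    have h2 : (pr m a).2 = (pr m b).2 := by rw [H]
    rw [pr_fst, pr_fst] at h1
    rw [pr_snd, pr_snd] at h2
    rw [ZMod.intCast_eq_intCast_iff] at h2
    obtain ⟨q, hq⟩ := Int.modEq_iff_dvd.1 h2.symm
    refine ⟨q, Prod.ext h1 ?_⟩
    rw [sh_snd]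
    linarith [mul_comm (m : ℤ) q]
  · rintro ⟨k, rfl⟩
    exact pr_sh_mul k b

theorem surjective_pr : Surjective (pr m : Fin G.n × ℤ → Fin G.n × ZMod m) := by
  rintro ⟨i, κ⟩
  obtain ⟨k, rfl⟩ := ZMod.intCast_surjective κ
  exact ⟨(i, k), rfl⟩

theorem toM_mem_UM' {α : Fin G.n × ZMod m} {z : Cov h} :
    Cov.toM m z ∈ D.UM m α.1 α.2 ↔ ∃ a : Fin G.n × ℤ, pr m a = α ∧ z ∈ D.U a.1 a.2 := by
  rw [D.toM_mem_UM]
  constructor
  · rintro ⟨k, hk, hz⟩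
    exact ⟨(α.1, k), Prod.ext rfl hk, hz⟩
  · rintro ⟨a, rfl, hz⟩
    exact ⟨a.2, rfl, hz⟩

theorem toM_mem_UM_of_mem {a : Fin G.n × ℤ} {z : Cov h} (hz : z ∈ D.U a.1 a.2) :
    Cov.toM m z ∈ D.UM m (pr m a).1 (pr m a).2 := D.toM_mem_UM'.2 ⟨a, rfl, hz⟩

/-- the pull-back of a cochain of the `m`-fold cover -/
def pullC {R : Type*} (n : Fin G.n × ZMod m → Fin G.n × ZMod m → Fin G.n × ZMod m → R)
    (a b c : Fin G.n × ℤ) : R := n (pr m a) (pr m b) (pr m c)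

theorem pullC_sh {R : Type*} (n : Fin G.n × ZMod m → Fin G.n × ZMod m → Fin G.n × ZMod m → R)
    (a b c : Fin G.n × ℤ) : pullC n (sh m a) (sh m b) (sh m c) = pullC n a b c := by
  unfold pullC
  rw [pr_sh, pr_sh, pr_sh]

theorem pullC_coc {R : Type*} [AddCommGroup R]
    {n : Fin G.n × ZMod m → Fin G.n × ZMod m → Fin G.n × ZMod m → R}
    (hn : IsCoc (fun α : Fin G.n × ZMod m => D.UM m α.1 α.2) n) (a b c d : Fin G.n × ℤ)
    (H : D.tet4 a b c d) :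
    pullC n b c d - pullC n a c d + pullC n a b d - pullC n a b c = 0 := by
  obtain ⟨z, ⟨⟨ha, hb⟩, hc⟩, hd⟩ := H
  exact hn _ _ _ _ (Cov.toM m z) (D.toM_mem_UM_of_mem ha) (D.toM_mem_UM_of_mem hb)
    (D.toM_mem_UM_of_mem hc) (D.toM_mem_UM_of_mem hd)

/-- a simplex of the nerve of the `m`-fold cover lifts to the nerve of the infinite cover,
with a prescribed lift of the first vertex -/
theorem lift_mem {α : Fin G.n × ZMod m} {a : Fin G.n × ℤ} (hα : pr m a = α) {w : CovM h m}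
    (hw : w ∈ D.UM m α.1 α.2) : ∃ z : Cov h, Cov.toM m z = w ∧ z ∈ D.U a.1 a.2 := by
  subst hα
  have h1 := D.toM_image_U (m := m) a.1 a.2
  rw [pr_fst, pr_snd, ← h1] at hw
  obtain ⟨z, hz, rfl⟩ := hw
  exact ⟨z, rfl, hz⟩

theorem exists_idx {z : Cov h} {β : Fin G.n × ZMod m} (hβ : Cov.toM m z ∈ D.UM m β.1 β.2) :
    ∃ b : Fin G.n × ℤ, pr m b = β ∧ z ∈ D.U b.1 b.2 := D.toM_mem_UM'.1 hβ

/-! ### wrapping a finitely supported cochain -/

/-- the push-forward to the nerve of the `m`-fold cover of a cochain supported in `s` -/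
def wrap {R : Type*} [AddCommGroup R] (m : ℕ) (s : Finset (Fin G.n × ℤ))
    (e : Fin G.n × ℤ → Fin G.n × ℤ → Fin G.n × ℤ → R)
    (α β γ : Fin G.n × ZMod m) : R :=
  ∑ a ∈ s, ∑ b ∈ s, ∑ c ∈ s, if pr m a = α ∧ pr m b = β ∧ pr m c = γ then e a b c else 0

/-- on a triangle, `wrap` is the sum over the translates -/
theorem wrap_eq {R : Type*} [AddCommGroup R] {s : Finset (Fin G.n × ℤ)}
    {e : Fin G.n × ℤ → Fin G.n × ℤ → Fin G.n × ℤ → R}
    (hs : ∀ a b c, e a b c ≠ 0 → D.tri3 a b c ∧ a ∈ s ∧ b ∈ s ∧ c ∈ s)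
    {a b c : Fin G.n × ℤ} (habc : D.tri3 a b c) {k : ℤ}
    (hk : ∀ k' : ℤ, k' ≠ k → e (sh (k' * m) a) (sh (k' * m) b) (sh (k' * m) c) = 0) :
    wrap m s e (pr m a) (pr m b) (pr m c) = e (sh (k * m) a) (sh (k * m) b) (sh (k * m) c) := by
  have hm : (m : ℤ) ≠ 0 := by exact_mod_cast NeZero.ne m
  have hmain : ∀ a' b' c', pr m a' = pr m a ∧ pr m b' = pr m b ∧ pr m c' = pr m c →
      e a' b' c' ≠ 0 → a' = sh (k * m) a ∧ b' = sh (k * m) b ∧ c' = sh (k * m) c := by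
    rintro a' b' c' ⟨h1, h2, h3⟩ hne
    obtain ⟨p, rfl⟩ := pr_eq_iff.1 h1
    obtain ⟨q, rfl⟩ := pr_eq_iff.1 h2
    obtain ⟨r, rfl⟩ := pr_eq_iff.1 h3
    obtain ⟨⟨z, ⟨ha, hb⟩, hc⟩, -⟩ := hs _ _ _ hne
    obtain ⟨z', ⟨ha', hb'⟩, hc'⟩ := habc
    have e1 := D.sub_eq_c ha hb
    have e2 := D.sub_eq_c ha' hb'
    have e3 := D.sub_eq_c ha hc
    have e4 := D.sub_eq_c ha' hc'
    simp only [sh_fst, sh_snd] at e1 e3
    have hqp : q = p := by
      have : (q - p) * (m : ℤ) = 0 := by linarith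
      rcases mul_eq_zero.1 this with h | h
      · linarith
      · exact absurd h hm
    have hrp : r = p := by
      have : (r - p) * (m : ℤ) = 0 := by linarith
      rcases mul_eq_zero.1 this with h | h
      · linarith
      · exact absurd h hm
    rw [hqp, hrp] at hne
    have hpk : p = k := by
      by_contra hne'
      exact hne (hk p hne')
    rw [hqp, hrp, hpk]
    exact ⟨rfl, rfl, rfl⟩
  have hprk : pr m (sh (k * m) a) = pr m a ∧ pr m (sh (k * m) b) = pr m b ∧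
      pr m (sh (k * m) c) = pr m c := ⟨pr_sh_mul k a, pr_sh_mul k b, pr_sh_mul k c⟩
  unfold wrap
  rw [Finset.sum_eq_single (sh (k * m) a), Finset.sum_eq_single (sh (k * m) b),
    Finset.sum_eq_single (sh (k * m) c), if_pos hprk]
  · intro c' _ hne
    by_cases hc : pr m (sh (k * m) a) = pr m a ∧ pr m (sh (k * m) b) = pr m b ∧ pr m c' = pr m c
    · rw [if_pos hc]
      by_contra h0
      exact hne (hmain _ _ _ hc h0).2.2
    · rw [if_neg hc]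
  · intro hnot
    rw [if_pos hprk]
    by_contra h0
    exact hnot (hs _ _ _ h0).2.2.2
  · intro b' _ hne
    refine Finset.sum_eq_zero fun c' _ => ?_
    by_cases hc : pr m (sh (k * m) a) = pr m a ∧ pr m b' = pr m b ∧ pr m c' = pr m c
    · rw [if_pos hc]
      by_contra h0
      exact hne (hmain _ _ _ hc h0).2.1
    · rw [if_neg hc]
  · intro hnot
    refine Finset.sum_eq_zero fun c' _ => ?_
    by_cases hc : pr m (sh (k * m) a) = pr m a ∧ pr m (sh (k * m) b) = pr m b ∧ pr m c' = pr m c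
    · rw [if_pos hc]
      by_contra h0
      exact hnot (hs _ _ _ h0).2.2.1
    · rw [if_neg hc]
  · intro a' _ hne
    refine Finset.sum_eq_zero fun b' _ => Finset.sum_eq_zero fun c' _ => ?_
    by_cases hc : pr m a' = pr m a ∧ pr m b' = pr m b ∧ pr m c' = pr m c
    · rw [if_pos hc]
      by_contra h0
      exact hne (hmain _ _ _ hc h0).1
    · rw [if_neg hc]
  · intro hnot
    refine Finset.sum_eq_zero fun b' _ => Finset.sum_eq_zero fun c' _ => ?_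
    by_cases hc : pr m (sh (k * m) a) = pr m a ∧ pr m b' = pr m b ∧ pr m c' = pr m c
    · rw [if_pos hc]
      by_contra h0
      exact hnot (hs _ _ _ h0).2.1
    · rw [if_neg hc]

/-! ### descending a periodic one-cochain -/

/-- the one-cochain of the `m`-fold cover whose pull-back is the periodic cochain `β` -/
noncomputable def descC {R : Type*} (D : CycCover G h) (m : ℕ) [NeZero m]
    (β : Fin G.n × ℤ → Fin G.n × ℤ → R) (α α' : Fin G.n × ZMod m) : R :=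
  β (α.1, (α.2.val : ℤ)) (α'.1, (α.2.val : ℤ) + D.c α.1 α'.1)

theorem descC_pr {R : Type*} {β : Fin G.n × ℤ → Fin G.n × ℤ → R}
    (hβ : ∀ a b, β (sh m a) (sh m b) = β a b) {a b : Fin G.n × ℤ} {z : Cov h}
    (ha : z ∈ D.U a.1 a.2) (hb : z ∈ D.U b.1 b.2) :
    D.descC m β (pr m a) (pr m b) = β a b := by
  have h1 : pr m (a.1, (((a.2 : ZMod m).val : ℕ) : ℤ)) = pr m a := by
    refine Prod.ext rfl ?_
    simp [pr]
  obtain ⟨k, hk⟩ := pr_eq_iff.1 h1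
  have h2 : (((a.2 : ZMod m).val : ℕ) : ℤ) = a.2 + k * m := congrArg Prod.snd hk
  have h3 : (b.1, (((a.2 : ZMod m).val : ℕ) : ℤ) + D.c a.1 b.1) = sh (k * m) b := by
    refine Prod.ext rfl ?_
    rw [sh_snd, h2, ← D.sub_eq_c ha hb]
    ring
  have h4 : D.descC m β (pr m a) (pr m b) =
      β (a.1, (((a.2 : ZMod m).val : ℕ) : ℤ)) (b.1, (((a.2 : ZMod m).val : ℕ) : ℤ) + D.c a.1 b.1) :=
    rfl
  rw [h4, h3, hk]
  exact per2 hβ k a b

/-- **The relation of `wrap e` with the original cochain.** -/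
theorem wrap_eq_add {s : Finset (Fin G.n × ℤ)}
    {n : Fin G.n × ZMod m → Fin G.n × ZMod m → Fin G.n × ZMod m → ℤ}
    {β : Fin G.n × ℤ → Fin G.n × ℤ → ℝ} {e : Fin G.n × ℤ → Fin G.n × ℤ → Fin G.n × ℤ → ℤ}
    (hβ : ∀ a b, β (sh m a) (sh m b) = β a b)
    (hs : ∀ a b c, e a b c ≠ 0 → D.tri3 a b c ∧ a ∈ s ∧ b ∈ s ∧ c ∈ s)
    (he : ∀ a b c, D.tri3 a b c → ∃ k : ℤ,
      ((e (sh (k * m) a) (sh (k * m) b) (sh (k * m) c) : ℤ) : ℝ)
        = pullC n a b c + (β b c - β a c + β a b) ∧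
      ∀ k' : ℤ, k' ≠ k → e (sh (k' * m) a) (sh (k' * m) b) (sh (k' * m) c) = 0)
    {α α' α'' : Fin G.n × ZMod m} {w : CovM h m} (h1 : w ∈ D.UM m α.1 α.2)
    (h2 : w ∈ D.UM m α'.1 α'.2) (h3 : w ∈ D.UM m α''.1 α''.2) :
    ((wrap m s e α α' α'' : ℤ) : ℝ) = n α α' α'' +
      (D.descC m β α' α'' - D.descC m β α α'' + D.descC m β α α') := by
  obtain ⟨z, rfl⟩ := Cov.surjective_toM (m := m) w
  obtain ⟨a, rfl, ha⟩ := D.exists_idx h1
  obtain ⟨b, rfl, hb⟩ := D.exists_idx h2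
  obtain ⟨c, rfl, hc⟩ := D.exists_idx h3
  have htri : D.tri3 a b c := ⟨z, ⟨ha, hb⟩, hc⟩
  obtain ⟨k, hk1, hk2⟩ := he a b c htri
  rw [D.wrap_eq hs htri hk2, hk1, D.descC_pr hβ hb hc, D.descC_pr hβ ha hc, D.descC_pr hβ ha hb]
  rfl

/-- `wrap e` is a cocycle -/
theorem wrap_coc {s : Finset (Fin G.n × ℤ)}
    {n : Fin G.n × ZMod m → Fin G.n × ZMod m → Fin G.n × ZMod m → ℤ}
    (hn : IsCoc (fun α : Fin G.n × ZMod m => D.UM m α.1 α.2) n)
    {β : Fin G.n × ℤ → Fin G.n × ℤ → ℝ} {e : Fin G.n × ℤ → Fin G.n × ℤ → Fin G.n × ℤ → ℤ}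
    (hβ : ∀ a b, β (sh m a) (sh m b) = β a b)
    (hs : ∀ a b c, e a b c ≠ 0 → D.tri3 a b c ∧ a ∈ s ∧ b ∈ s ∧ c ∈ s)
    (he : ∀ a b c, D.tri3 a b c → ∃ k : ℤ,
      ((e (sh (k * m) a) (sh (k * m) b) (sh (k * m) c) : ℤ) : ℝ)
        = pullC n a b c + (β b c - β a c + β a b) ∧
      ∀ k' : ℤ, k' ≠ k → e (sh (k' * m) a) (sh (k' * m) b) (sh (k' * m) c) = 0) :
    IsCoc (fun α : Fin G.n × ZMod m => D.UM m α.1 α.2) (wrap m s e) := by
  intro α₁ α₂ α₃ α₄ w h1 h2 h3 h4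
  have e1 := D.wrap_eq_add hβ hs he h2 h3 h4
  have e2 := D.wrap_eq_add hβ hs he h1 h3 h4
  have e3 := D.wrap_eq_add hβ hs he h1 h2 h4
  have e4 := D.wrap_eq_add hβ hs he h1 h2 h3
  have e5 := hn _ _ _ _ w h1 h2 h3 h4
  have e6 : ((n α₂ α₃ α₄ - n α₁ α₃ α₄ + n α₁ α₂ α₄ - n α₁ α₂ α₃ : ℤ) : ℝ) = 0 := by
    rw [e5, Int.cast_zero]
  have e7 : ((wrap m s e α₂ α₃ α₄ - wrap m s e α₁ α₃ α₄ + wrap m s e α₁ α₂ α₄ -
      wrap m s e α₁ α₂ α₃ : ℤ) : ℝ) = 0 := by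
    push_cast at e6 ⊢
    linarith
  exact_mod_cast e7

end CycCover

end Vale.Agent.P267.H431
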