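import Vale.Agent.P267.H431.Sheets
import Mathlib.Geometry.Manifold.PartitionOfUnity

/-!
# P267, package LIFT-COVER (helper431), part 2: good covers of finite coverings, lifted functions
-/

open Set Filter Topology Metric Function Manifold
open scoped ContDiff

namespace Vale.Agent.P267.H431

open Vale.Agent.P267.H368 Vale.Agent.P267.H158

variable {E F : Type*} [NormedAddCommGroup E] [NormedSpace ℝ E]
  [NormedAddCommGroup F] [InnerProductSpace ℝ F] {X : Type*} [TopologicalSpace X]
  [ChartedSpace E X] {A : E ≃L[ℝ] F}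
variable {Y : Type*} [TopologicalSpace Y] {p : Y → X}

namespace Sheets

variable {G : GoodCover X A} {K : Type*} (T : Sheets p G K)

/-- `U i k` as a ball of the chart `chart i k` -/
theorem cball_eq [Nonempty Y] (hp : IsLocalHomeomorph p) (i : Fin G.n) (k : K) (r : ℝ) (hr : r ≤ G.r) :
    cball A (T.chart hp i k) (G.c i) r = T.S i k ∩ p ⁻¹' cball A (G.e i) (G.c i) r := by
  have hsub : ∀ w, w ∈ aball A (G.c i) r → w ∈ (G.e i).target ∧ (G.e i).symm w ∈ T.W i := by
    intro w hw
    have hw' : w ∈ aball A (G.c i) G.r := by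
      rw [mem_aball] at hw ⊢
      linarith
    exact ⟨G.aball_sub i hw', T.U_sub_W i ⟨w, hw', rfl⟩⟩
  ext y
  constructor
  · rintro ⟨w, hw, rfl⟩
    obtain ⟨h1, h2⟩ := hsub w hw
    refine ⟨T.br_symm_mem hp h2, ?_⟩
    rw [mem_preimage, T.chart_symm_apply hp, T.p_br_symm hp h2]
    exact ⟨w, hw, rfl⟩
  · rintro ⟨h1, w, hw, h2⟩
    refine ⟨w, hw, ?_⟩
    rw [T.chart_symm_apply hp, h2, T.br_symm_p hp h1]

theorem cball_eq_U [Nonempty Y] (hp : IsLocalHomeomorph p) (i : Fin G.n) (k : K) :
    cball A (T.chart hp i k) (G.c i) G.r = T.U i k :=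
  T.cball_eq hp i k G.r le_rfl

/-- the good cover of `Y` given by a finite family of sheets -/
noncomputable def goodCover [Nonempty Y] (hp : IsLocalHomeomorph p) (hclosed : ∀ i w,
    ‖A w - A (G.c i)‖ ≤ G.r → (G.e i).symm w ∈ T.W i) {N : ℕ} (ε : Fin N ≃ Fin G.n × K) :
    letI := pullCS E hp
    GoodCover Y A :=
  letI := pullCS E hp
  { n := N
    e := fun a => T.chart hp (ε a).1 (ε a).2
    c := fun a => G.c (ε a).1
    r := G.r
    r_pos := G.r_pos
    e_mem := fun a => T.chart_mem_atlas hp _ _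
    closed_sub := by
      intro a w hw
      rw [T.mem_chart_target hp]
      exact ⟨G.closed_sub _ hw, hclosed _ _ hw⟩
    cover := by
      intro y
      obtain ⟨i, hi⟩ := G.cover (p y)
      have h1 : cball A (G.e i) (G.c i) (G.r / 2) ⊆ G.U i := by
        rintro _ ⟨w, hw, rfl⟩
        refine ⟨w, ?_, rfl⟩
        rw [mem_aball] at hw ⊢
        have := G.r_pos
        linarith
      obtain ⟨k, hk⟩ := T.exists_mem_S (T.U_sub_W i (h1 hi))
      refine ⟨ε.symm (i, k), ?_⟩
      have h2 : ε (ε.symm (i, k)) = (i, k) := ε.apply_symm_apply _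
      rw [h2, T.cball_eq hp i k _ (by linarith [G.r_pos])]
      exact ⟨hk, hi⟩
    sub := by
      intro a b hab
      rw [T.cball_eq_U hp, T.cball_eq_U hp] at hab
      rw [T.cball_eq_U hp]
      exact T.U_sub_chart_source hp hab
    conv := by
      classical
      intro a b hab
      rw [T.cball_eq_U hp, T.cball_eq_U hp] at hab
      rw [T.cball_eq_U hp, T.chart_image hp, T.image_U]
      obtain ⟨y, hy⟩ := hab
      exact G.conv _ _ ⟨p y, hy.1.2, hy.2.2⟩ }

section lift

variable {V : Type*} [Zero V]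

/-- the lift of a function with support in `W i` to the sheet `S i k` -/
noncomputable def lift (i : Fin G.n) (k : K) (g : X → V) : Y → V :=
  (T.S i k).indicator (g ∘ p)

theorem lift_of_mem {i : Fin G.n} {k : K} (g : X → V) {y : Y} (hy : y ∈ T.S i k) :
    T.lift i k g y = g (p y) := indicator_of_mem hy _

theorem lift_of_notMem {i : Fin G.n} {k : K} (g : X → V) {y : Y} (hy : y ∉ T.S i k) :
    T.lift i k g y = 0 := indicator_of_notMem hy _

theorem support_lift (i : Fin G.n) (k : K) (g : X → V) :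
    support (T.lift i k g) = T.S i k ∩ p ⁻¹' support g := by
  ext y
  by_cases hy : y ∈ T.S i k
  · rw [mem_support, T.lift_of_mem g hy]
    exact ⟨fun h => ⟨hy, h⟩, fun h => h.2⟩
  · rw [mem_support, T.lift_of_notMem g hy]
    exact ⟨fun h => absurd rfl h, fun h => absurd h.1 hy⟩

theorem isClosed_sheet_inter (hp : Continuous p) {i : Fin G.n} (k : K) {C : Set X}
    (hC : IsClosed C) (hCW : C ⊆ T.W i) : IsClosed (T.S i k ∩ p ⁻¹' C) := by
  refine isClosed_of_closure_subset fun y hy => ?_
  have h1 : p y ∈ C := by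
    have h2 : closure (T.S i k ∩ p ⁻¹' C) ⊆ p ⁻¹' C :=
      closure_minimal inter_subset_right (hC.preimage hp)
    exact h2 hy
  obtain ⟨k', hk'⟩ := T.exists_mem_S (hCW h1)
  obtain ⟨z, hz, hz', -⟩ := mem_closure_iff.1 hy _ (T.isOpen_S i k') hk'
  have := T.eq_of_mem hz hz'
  rw [this] at hk'
  exact ⟨hk', h1⟩

theorem tsupport_lift (hp : Continuous p) {i : Fin G.n} (k : K) {g : X → V}
    (hg : tsupport g ⊆ T.W i) : tsupport (T.lift i k g) ⊆ T.S i k ∩ p ⁻¹' tsupport g := by
  refine closure_minimal ?_ (T.isClosed_sheet_inter hp k (isClosed_tsupport g) hg)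
  rw [T.support_lift]
  exact inter_subset_inter_right _ (preimage_mono (subset_tsupport g))

theorem tsupport_lift_U (hp : Continuous p) {i : Fin G.n} (k : K) {g : X → V}
    (hg : tsupport g ⊆ G.U i) : tsupport (T.lift i k g) ⊆ T.U i k := by
  refine (T.tsupport_lift hp k (hg.trans (T.U_sub_W i))).trans ?_
  exact inter_subset_inter_right _ (preimage_mono hg)

/-- compact sets of `W i` lift to compact sets of the sheets -/
theorem isCompact_sheet_inter [T2Space X] (hp : IsLocalHomeomorph p) {i : Fin G.n} (k : K)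
    {C : Set X} (hC : IsCompact C) (hCW : C ⊆ T.W i) : IsCompact (T.S i k ∩ p ⁻¹' C) := by
  rcases C.eq_empty_or_nonempty with rfl | ⟨b, hb⟩
  · rw [preimage_empty, inter_empty]
    exact isCompact_empty
  have : Nonempty Y := by
    have h1 : b ∈ p '' T.S i k := by
      rw [T.image]
      exact hCW hb
    obtain ⟨y, -⟩ := h1
    exact ⟨y⟩
  have h1 : T.S i k ∩ p ⁻¹' C = (T.br hp i k).symm '' C := by
    ext y
    constructor
    · rintro ⟨h1, h2⟩
      exact ⟨p y, h2, T.br_symm_p hp h1⟩
    · rintro ⟨x, hx, rfl⟩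
      refine ⟨T.br_symm_mem hp (hCW hx), ?_⟩
      rw [mem_preimage, T.p_br_symm hp (hCW hx)]
      exact hx
  rw [h1]
  refine hC.image_of_continuousOn ((T.br hp i k).symm.continuousOn.mono ?_)
  rw [OpenPartialHomeomorph.symm_source, T.br_target hp]
  exact hCW

theorem hasCompactSupport_lift [T2Space X] (hp : IsLocalHomeomorph p) {i : Fin G.n} (k : K)
    {g : X → V} (hg : tsupport g ⊆ T.W i) (hc : HasCompactSupport g) :
    HasCompactSupport (T.lift i k g) :=
  (T.isCompact_sheet_inter hp k hc hg).of_isClosed_subset (isClosed_tsupport _)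
    (T.tsupport_lift hp.continuous k hg)

theorem lift_eventuallyEq {i : Fin G.n} {k : K} (g : X → V) {y : Y} (hy : y ∈ T.S i k) :
    T.lift i k g =ᶠ[𝓝 y] g ∘ p := by
  filter_upwards [(T.isOpen_S i k).mem_nhds hy] with z hz using T.lift_of_mem g hz

end lift

section smooth

variable {𝕜 : Type*} [NontriviallyNormedField 𝕜] [NormedSpace 𝕜 E]
variable {E' : Type*} [NormedAddCommGroup E'] [NormedSpace 𝕜 E'] {H' : Type*}
  [TopologicalSpace H'] {I' : ModelWithCorners 𝕜 E' H'} {V : Type*} [TopologicalSpace V]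
  [ChartedSpace H' V] [Zero V]

theorem contMDiff_lift (hp : IsLocalHomeomorph p) {n : WithTop ℕ∞} {i : Fin G.n} (k : K)
    {g : X → V} (hg : tsupport g ⊆ T.W i) (hs : ContMDiff 𝓘(𝕜, E) I' n g) :
    letI := pullCS E hp
    ContMDiff 𝓘(𝕜, E) I' n (T.lift i k g) := by
  let _ := pullCS E hp
  intro y
  by_cases hy : y ∈ tsupport (T.lift i k g)
  · have h1 := T.tsupport_lift hp.continuous k hg hy
    have h2 : ContMDiffAt 𝓘(𝕜, E) I' n (g ∘ p) y :=
      (hs (p y)).comp y ((pull_contMDiff 𝓘(𝕜, E) hp n) y)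
    exact h2.congr_of_eventuallyEq (T.lift_eventuallyEq g h1.1)
  · have h3 : T.lift i k g =ᶠ[𝓝 y] fun _ => (0 : V) := by
      have := notMem_tsupport_iff_eventuallyEq.1 hy
      exact this
    exact contMDiffAt_const.congr_of_eventuallyEq h3

end smooth

section sums

variable {V : Type*} [AddCommMonoid V]

theorem finsum_lift {i : Fin G.n} {g : X → V} (hg : support g ⊆ T.W i) (y : Y) :
    ∑ᶠ k, T.lift i k g y = g (p y) := by
  by_cases hy : p y ∈ T.W i
  · obtain ⟨k, hk⟩ := T.exists_mem_S hy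
    rw [finsum_eq_single _ k, T.lift_of_mem g hk]
    intro k' hk'
    refine T.lift_of_notMem g fun h => hk' (T.eq_of_mem h hk)
  · have h1 : g (p y) = 0 := by
      by_contra h
      exact hy (hg h)
    rw [h1]
    refine (finsum_congr fun k => ?_).trans finsum_zero
    exact T.lift_of_notMem g fun h => hy (T.p_mem_W h)

theorem sum_lift [Fintype K] {i : Fin G.n} {g : X → V} (hg : support g ⊆ T.W i) (y : Y) :
    ∑ k, T.lift i k g y = g (p y) := by
  rw [← finsum_eq_sum_of_fintype, T.finsum_lift hg]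

end sums

end Sheets

end Vale.Agent.P267.H431
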