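import Vale.Agent.P267.H431.CyclicM
import Mathlib.Geometry.Manifold.PartitionOfUnity

/-!
# P267, package LIFT-COVER (helper431), part 5: partitions of unity
-/

open Set Filter Topology Metric Function Manifold
open scoped ContDiff

namespace Vale.Agent.P267.H431

open Vale.Agent.P267.H368 Vale.Agent.P267.H158

variable {E F : Type*} [NormedAddCommGroup E] [NormedSpace ℝ E]
  [NormedAddCommGroup F] [InnerProductSpace ℝ F] {X : Type*} [TopologicalSpace X]
  [ChartedSpace E X] {A : E ≃L[ℝ] F}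

/-- a smooth partition of unity `ρ` subordinate to a good cover, and functions `φ` with the same
supports with `∑ φ i ^ 2 = 1` -/
structure PartUnity (G : GoodCover X A) where
  /-- the partition of unity -/
  ρ : Fin G.n → X → ℝ
  smooth : ∀ i, ContMDiff 𝓘(ℝ, E) 𝓘(ℝ, ℝ) ∞ (ρ i)
  nonneg : ∀ i x, 0 ≤ ρ i x
  sum_eq : ∀ x, ∑ i, ρ i x = 1
  tsupp : ∀ i, tsupport (ρ i) ⊆ G.U i
  /-- the square roots of another partition of unity -/
  φ : Fin G.n → X → ℝ
  smooth' : ∀ i, ContMDiff 𝓘(ℝ, E) 𝓘(ℝ, ℝ) ∞ (φ i)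
  nonneg' : ∀ i x, 0 ≤ φ i x
  sum_sq : ∀ x, ∑ i, φ i x ^ 2 = 1
  tsupp' : ∀ i, tsupport (φ i) ⊆ G.U i

theorem exists_partUnity [FiniteDimensional ℝ E] [CompactSpace X] [T2Space X]
    [IsManifold 𝓘(ℝ, E) ∞ X] (G : GoodCover X A) : Nonempty (PartUnity G) := by
  obtain ⟨f, hf⟩ := SmoothPartitionOfUnity.exists_isSubordinate 𝓘(ℝ, E) (s := (univ : Set X))
    isClosed_univ G.U G.isOpen_U (fun x _ => mem_iUnion.2 (G.exists_mem_U x))
  have hsum : ∀ x, ∑ i, f i x = 1 := by
    intro x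
    rw [← finsum_eq_sum_of_fintype]
    exact f.sum_eq_one (mem_univ x)
  have hpos : ∀ x, 0 < ∑ i, f i x ^ 2 := by
    intro x
    have h1 : ∃ i ∈ (Finset.univ : Finset (Fin G.n)), 0 < f i x ^ 2 := by
      by_contra hcon
      push Not at hcon
      have h2 : ∀ i, f i x = 0 := fun i => by
        have h3 := hcon i (Finset.mem_univ i)
        exact pow_eq_zero_iff two_ne_zero |>.1 (le_antisymm h3 (sq_nonneg _))
      have h4 := hsum x
      simp only [h2, Finset.sum_const_zero] at h4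
      exact zero_ne_one h4
    exact Finset.sum_pos' (fun i _ => sq_nonneg _) h1
  have hs : ∀ i, ContMDiff 𝓘(ℝ, E) 𝓘(ℝ, ℝ) ∞ (f i) := fun i => (f i).contMDiff
  have hsq : ContMDiff 𝓘(ℝ, E) 𝓘(ℝ, ℝ) ∞ (fun x => ∑ i, f i x ^ 2) := by
    refine contMDiff_finsetSum (fun i _ => ?_)
    have := (hs i).smul (hs i)
    refine this.congr fun x => ?_
    change f i x ^ 2 = f i x * f i x
    rw [sq]
  refine ⟨{
    ρ := fun i x => f i x
    smooth := hs
    nonneg := fun i x => f.nonneg i x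
    sum_eq := hsum
    tsupp := hf
    φ := fun i x => f i x * (Real.sqrt (∑ j, f j x ^ 2))⁻¹
    smooth' := fun i => ?_
    nonneg' := fun i x => mul_nonneg (f.nonneg i x) (inv_nonneg.2 (Real.sqrt_nonneg _))
    sum_sq := fun x => ?_
    tsupp' := fun i => ?_ }⟩
  · intro x
    have h1 : ContDiffAt ℝ ∞ (fun t : ℝ => (Real.sqrt t)⁻¹) (∑ j, f j x ^ 2) := by
      refine ContDiffAt.inv ?_ (Real.sqrt_ne_zero'.2 (hpos x))
      exact Real.contDiffAt_sqrt (hpos x).ne'
    have h2 : ContMDiffAt 𝓘(ℝ, E) 𝓘(ℝ, ℝ) ∞ (fun x => (Real.sqrt (∑ j, f j x ^ 2))⁻¹) x :=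
      ContMDiffAt.comp x (g := fun t : ℝ => (Real.sqrt t)⁻¹) h1.contMDiffAt (hsq x)
    have h3 := (hs i x).smul h2
    exact h3.congr_of_eventuallyEq (Eventually.of_forall fun y => rfl)
  · have h1 := hpos x
    have h2 : ∀ i, (f i x * (Real.sqrt (∑ j, f j x ^ 2))⁻¹) ^ 2 =
        f i x ^ 2 * (∑ j, f j x ^ 2)⁻¹ := by
      intro i
      rw [mul_pow, inv_pow, Real.sq_sqrt h1.le]
    simp only [h2]
    rw [← Finset.sum_mul, mul_inv_cancel₀ h1.ne']
  · refine (closure_mono ?_).trans (hf i)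
    intro x hx
    rw [mem_support] at hx ⊢
    exact left_ne_zero_of_mul hx

namespace PartUnity

variable {G : GoodCover X A} (P : PartUnity G) {Y : Type*} [TopologicalSpace Y] {p : Y → X}
  {K : Type*} (T : Sheets p G K)

/-- the lifted partition of unity -/
noncomputable def ρL (a : Fin G.n × K) : Y → ℝ := T.lift a.1 a.2 (P.ρ a.1)

/-- the lifted square roots -/
noncomputable def φL (a : Fin G.n × K) : Y → ℝ := T.lift a.1 a.2 (P.φ a.1)

theorem supp_sub_W (i : Fin G.n) : support (P.ρ i) ⊆ T.W i :=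
  (subset_tsupport _).trans ((P.tsupp i).trans (T.U_sub_W i))

theorem supp_sub_W' (i : Fin G.n) : support (P.φ i) ⊆ T.W i :=
  (subset_tsupport _).trans ((P.tsupp' i).trans (T.U_sub_W i))

theorem ρL_smooth (hp : IsLocalHomeomorph p) (a : Fin G.n × K) :
    letI := pullCS E hp
    ContMDiff 𝓘(ℝ, E) 𝓘(ℝ, ℝ) ∞ (P.ρL T a) :=
  T.contMDiff_lift hp a.2 ((P.tsupp a.1).trans (T.U_sub_W a.1)) (P.smooth a.1)

theorem φL_smooth (hp : IsLocalHomeomorph p) (a : Fin G.n × K) :
    letI := pullCS E hp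
    ContMDiff 𝓘(ℝ, E) 𝓘(ℝ, ℝ) ∞ (P.φL T a) :=
  T.contMDiff_lift hp a.2 ((P.tsupp' a.1).trans (T.U_sub_W a.1)) (P.smooth' a.1)

theorem ρL_nonneg (a : Fin G.n × K) (y : Y) : 0 ≤ P.ρL T a y :=
  indicator_nonneg (fun _ _ => P.nonneg _ _) y

theorem φL_nonneg (a : Fin G.n × K) (y : Y) : 0 ≤ P.φL T a y :=
  indicator_nonneg (fun _ _ => P.nonneg' _ _) y

theorem tsupport_ρL (hp : Continuous p) (a : Fin G.n × K) :
    tsupport (P.ρL T a) ⊆ T.U a.1 a.2 := T.tsupport_lift_U hp a.2 (P.tsupp a.1)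

theorem tsupport_φL (hp : Continuous p) (a : Fin G.n × K) :
    tsupport (P.φL T a) ⊆ T.U a.1 a.2 := T.tsupport_lift_U hp a.2 (P.tsupp' a.1)

theorem hasCompactSupport_ρL [CompactSpace X] [T2Space X] (hp : IsLocalHomeomorph p)
    (a : Fin G.n × K) : HasCompactSupport (P.ρL T a) :=
  T.hasCompactSupport_lift hp a.2 ((P.tsupp a.1).trans (T.U_sub_W a.1))
    (isClosed_tsupport _).isCompact

theorem hasCompactSupport_φL [CompactSpace X] [T2Space X] (hp : IsLocalHomeomorph p)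
    (a : Fin G.n × K) : HasCompactSupport (P.φL T a) :=
  T.hasCompactSupport_lift hp a.2 ((P.tsupp' a.1).trans (T.U_sub_W a.1))
    (isClosed_tsupport _).isCompact

/-- the sheet of index `i` at a point -/
theorem exists_sheet (y : Y) : ∃ κ : Fin G.n → Option K, ∀ i k, y ∈ T.S i k ↔ κ i = some k := by
  classical
  refine ⟨fun i => if h : ∃ k, y ∈ T.S i k then some h.choose else none, fun i k => ?_⟩
  by_cases h : ∃ k, y ∈ T.S i k
  · simp only [dif_pos h, Option.some.injEq]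
    constructor
    · intro hk
      exact T.eq_of_mem h.choose_spec hk
    · intro hk
      rw [← hk]
      exact h.choose_spec
  · simp only [dif_neg h]
    constructor
    · intro hk
      exact absurd ⟨k, hk⟩ h
    · intro hk
      exact absurd hk (by simp)

/-- finite sums over all indices: any finite set which contains the indices of the sheets through
`y` will do -/
theorem sum_lift_pair {V : Type*} [AddCommMonoid V] (g : Fin G.n → X → V)
    (hg : ∀ i, support (g i) ⊆ T.W i) (y : Y) (s : Finset (Fin G.n × K))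
    (hs : ∀ a : Fin G.n × K, y ∈ T.S a.1 a.2 → a ∈ s) :
    ∑ a ∈ s, T.lift a.1 a.2 (g a.1) y = ∑ i, g i (p y) := by
  classical
  have h1 : ∀ i, g i (p y) = ∑ a ∈ s with a.1 = i, T.lift a.1 a.2 (g a.1) y := by
    intro i
    by_cases hy : p y ∈ T.W i
    · obtain ⟨k, hk⟩ := T.exists_mem_S hy
      rw [Finset.sum_eq_single (i, k)]
      · exact (T.lift_of_mem (g i) hk).symm
      · rintro ⟨j, l⟩ hb hne
        obtain ⟨-, rfl⟩ := Finset.mem_filter.1 hb
        exact T.lift_of_notMem _ fun h => hne (Prod.ext rfl (T.eq_of_mem h hk))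
      · intro hnot
        exact absurd (Finset.mem_filter.2 ⟨hs (i, k) hk, rfl⟩ :
          (i, k) ∈ s.filter (fun a => a.1 = i)) hnot
    · have h2 : g i (p y) = 0 := by
        by_contra h
        exact hy (hg i h)
      rw [h2, Finset.sum_eq_zero]
      rintro ⟨j, l⟩ hb
      obtain ⟨-, rfl⟩ := Finset.mem_filter.1 hb
      exact T.lift_of_notMem _ fun h => hy (T.p_mem_W h)
  simp only [h1]
  rw [← Finset.sum_fiberwise_of_maps_to (g := Prod.fst) (t := Finset.univ)
    (fun a _ => Finset.mem_univ a.1)]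

theorem sum_ρL (y : Y) (s : Finset (Fin G.n × K))
    (hs : ∀ a : Fin G.n × K, y ∈ T.S a.1 a.2 → a ∈ s) : ∑ a ∈ s, P.ρL T a y = 1 := by
  rw [← P.sum_eq (p y)]
  exact sum_lift_pair T P.ρ (P.supp_sub_W T) y s hs

theorem sum_φL_sq (y : Y) (s : Finset (Fin G.n × K))
    (hs : ∀ a : Fin G.n × K, y ∈ T.S a.1 a.2 → a ∈ s) : ∑ a ∈ s, P.φL T a y ^ 2 = 1 := by
  rw [← P.sum_sq (p y), ← sum_lift_pair T (fun i x => P.φ i x ^ 2) (fun i => ?_) y s hs]
  · refine Finset.sum_congr rfl fun a _ => ?_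
    by_cases ha : y ∈ T.S a.1 a.2
    · rw [φL, T.lift_of_mem _ ha, T.lift_of_mem _ ha]
    · rw [φL, T.lift_of_notMem _ ha, T.lift_of_notMem _ ha]
      exact zero_pow two_ne_zero
  · intro x hx
    refine P.supp_sub_W' T i ?_
    rw [mem_support] at hx ⊢
    intro h
    apply hx
    simp only [h]
    exact zero_pow two_ne_zero

theorem finsum_ρL (y : Y) : ∑ᶠ a, P.ρL T a y = 1 := by
  classical
  obtain ⟨κ, hκ⟩ := exists_sheet T y
  have hfin : {a : Fin G.n × K | y ∈ T.S a.1 a.2}.Finite := by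
    refine ((Set.finite_range fun i => (i, κ i)).preimage
      (f := fun a : Fin G.n × K => (a.1, some a.2)) ?_).subset ?_
    · rintro ⟨i, k⟩ - ⟨j, l⟩ - h
      simpa using h
    · rintro ⟨i, k⟩ hik
      exact ⟨i, Prod.ext rfl ((hκ i k).1 hik)⟩
  rw [finsum_eq_sum_of_support_subset (s := hfin.toFinset)]
  · exact P.sum_ρL T y _ fun a ha => hfin.mem_toFinset.2 ha
  · intro a ha
    rw [Finset.mem_coe, hfin.mem_toFinset]
    by_contra hno
    exact ha (T.lift_of_notMem _ hno)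

end PartUnity

namespace CycCover

variable {G : GoodCover X A} {h : C(X, UnitAddCircle)} (D : CycCover G h)

/-- equivariance of the lifted functions -/
theorem lift_shift {V : Type*} [Zero V] (g : X → V) (i : Fin G.n) (k l : ℤ) (z : Cov h) :
    D.sheets.lift i (k + l) g (Cov.shift l z) = D.sheets.lift i k g z := by
  by_cases hz : z ∈ D.S i k
  · have h1 : Cov.shift l z ∈ D.sheets.S i (k + l) := D.shift_mem_S.2 hz
    rw [D.sheets.lift_of_mem g h1, D.sheets.lift_of_mem g (show z ∈ D.sheets.S i k from hz),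
      Cov.p_shift]
  · have h1 : Cov.shift l z ∉ D.sheets.S i (k + l) := fun h => hz (D.shift_mem_S.1 h)
    rw [D.sheets.lift_of_notMem g h1,
      D.sheets.lift_of_notMem g (show z ∉ D.sheets.S i k from hz)]

theorem ρL_shift (P : PartUnity G) (i : Fin G.n) (k l : ℤ) (z : Cov h) :
    P.ρL D.sheets (i, k + l) (Cov.shift l z) = P.ρL D.sheets (i, k) z :=
  D.lift_shift _ i k l z

theorem φL_shift (P : PartUnity G) (i : Fin G.n) (k l : ℤ) (z : Cov h) :
    P.φL D.sheets (i, k + l) (Cov.shift l z) = P.φL D.sheets (i, k) z :=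
  D.lift_shift _ i k l z

/-- comparison of the lifts to the infinite and to the finite cyclic covers -/
theorem liftM_toM {V : Type*} [AddCommMonoid V] {m : ℕ} [NeZero m] (g : X → V) (i : Fin G.n)
    (κ : ZMod m) (z : Cov h) :
    (D.sheetsM m).lift i κ g (Cov.toM m z) =
      ∑ᶠ k ∈ {k : ℤ | (k : ZMod m) = κ}, D.sheets.lift i k g z := by
  by_cases hz : ∃ k : ℤ, (k : ZMod m) = κ ∧ z ∈ D.S i k
  · have h1 : Cov.toM m z ∈ (D.sheetsM m).S i κ := D.toM_mem_SM.2 hz
    obtain ⟨k, hk, hzk⟩ := hz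
    have h2 : ∀ k' : ℤ, k' ≠ k → D.sheets.lift i k' g z = 0 := fun k' hne =>
      D.sheets.lift_of_notMem g fun hmem => hne (D.sheets.eq_of_mem hmem hzk)
    rw [(D.sheetsM m).lift_of_mem g h1, Cov.p_toM, finsum_eq_single _ k]
    · rw [finsum_eq_if, if_pos (show k ∈ {k : ℤ | (k : ZMod m) = κ} from hk)]
      exact (D.sheets.lift_of_mem g hzk).symm
    · intro k' hne
      rw [h2 k' hne]
      exact finsum_zero
  · have h1 : Cov.toM m z ∉ (D.sheetsM m).S i κ := fun h => hz (D.toM_mem_SM.1 h)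
    rw [(D.sheetsM m).lift_of_notMem g h1]
    refine (finsum_mem_eq_zero_of_forall_eq_zero fun k hk => ?_).symm
    exact D.sheets.lift_of_notMem g fun hmem => hz ⟨k, hk, hmem⟩

end CycCover

end Vale.Agent.P267.H431
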