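import Vale.Agent.P267.H368.Cover
import Vale.Agent.P267.H158.Pull

/-!
# P267, package LIFT-COVER (helper431), part 1: lifting a good cover to a covering space

`Sheets p G K` is the datum, for a local homeomorphism `p : Y → X` and a good cover `G` of `X`, of
open sets `W i` of `X` which contain the star of `G.U i` and are evenly covered with sheets
`S i k`, `k : K`. The sets `U i k = S i k ∩ p ⁻¹' G.U i` cover `Y`; every nonempty finite
intersection of them is mapped by `p` bijectively onto the intersection of the `G.U i` and by the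
chart `chart i k` (a chart of the pulled back atlas) of every member onto a convex open set.
-/

open Set Filter Topology Metric Function

namespace Vale.Agent.P267.H431

open Vale.Agent.P267.H368 Vale.Agent.P267.H158

section branches

variable {Y X : Type*} [TopologicalSpace Y] [TopologicalSpace X] {p : Y → X}

/-- the restriction of a local homeomorphism to an open set on which it is injective -/
noncomputable def brOn [Nonempty Y] (hp : IsLocalHomeomorph p) (S : Set Y) (hS : IsOpen S)
    (hinj : InjOn p S) : OpenPartialHomeomorph Y X :=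
  OpenPartialHomeomorph.ofContinuousOpenRestrict (hinj.toPartialEquiv p S)
    hp.continuous.continuousOn
    (by
      have h1 : IsOpenMap (S.domRestrict p) := hp.isOpenMap.domRestrict hS
      exact h1)
    hS

variable [Nonempty Y] (hp : IsLocalHomeomorph p) (S : Set Y) (hS : IsOpen S) (hinj : InjOn p S)

@[simp] theorem coe_brOn : (brOn hp S hS hinj : Y → X) = p := rfl

@[simp] theorem brOn_source : (brOn hp S hS hinj).source = S := rfl

@[simp] theorem brOn_target : (brOn hp S hS hinj).target = p '' S := rfl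

end branches

section good

variable {E F : Type*} [NormedAddCommGroup E] [NormedSpace ℝ E]
  [NormedAddCommGroup F] [InnerProductSpace ℝ F] {X : Type*} [TopologicalSpace X]
  [ChartedSpace E X] {A : E ≃L[ℝ] F}

omit [NormedSpace ℝ E] [ChartedSpace E X] in
theorem isPreconnected_of_image {e : OpenPartialHomeomorph X E} {s : Set X} (hs : s ⊆ e.source)
    (h : IsPreconnected (e '' s)) : IsPreconnected s := by
  have h1 : e.symm '' (e '' s) = s := by
    ext x
    constructor
    · rintro ⟨_, ⟨y, hy, rfl⟩, rfl⟩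
      rwa [e.left_inv (hs hy)]
    · intro hx
      exact ⟨_, ⟨x, hx, rfl⟩, e.left_inv (hs hx)⟩
  rw [← h1]
  refine h.image _ (e.symm.continuousOn.mono ?_)
  rintro _ ⟨y, hy, rfl⟩
  exact e.map_source (hs hy)

theorem GoodCover.isPreconnected_inter (G : GoodCover X A) (s : Finset (Fin G.n)) {i : Fin G.n}
    (hi : i ∈ s) : IsPreconnected (⋂ j ∈ s, G.U j) := by
  rcases (⋂ j ∈ s, G.U j).eq_empty_or_nonempty with h | h
  · rw [h]
    exact isPreconnected_empty
  · obtain ⟨h1, h2, -⟩ := G.inter_convex hi h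
    refine isPreconnected_of_image (e := G.e i) ?_ h2.isPreconnected
    intro x hx
    simp only [mem_iInter] at hx
    exact h1 i hi (hx i hi)

theorem GoodCover.isPreconnected_U (G : GoodCover X A) (i : Fin G.n) : IsPreconnected (G.U i) := by
  have := GoodCover.isPreconnected_inter G {i} (Finset.mem_singleton_self i)
  simpa using this

theorem GoodCover.isPreconnected_U_inter (G : GoodCover X A) (i j : Fin G.n) :
    IsPreconnected (G.U i ∩ G.U j) := by
  classical
  have := GoodCover.isPreconnected_inter G {i, j} (Finset.mem_insert_self i _)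
  simpa using this

theorem GoodCover.nonempty_U (G : GoodCover X A) (i : Fin G.n) : (G.U i).Nonempty := by
  refine ⟨(G.e i).symm (G.c i), G.c i, ?_, rfl⟩
  rw [mem_aball, sub_self, norm_zero]
  exact G.r_pos

variable {Y : Type*} [TopologicalSpace Y] {p : Y → X}

/-- sheets over the stars of a good cover -/
structure Sheets (p : Y → X) (G : GoodCover X A) (K : Type*) where
  /-- the evenly covered sets -/
  W : Fin G.n → Set X
  isOpen_W : ∀ i, IsOpen (W i)
  star : ∀ i j, (G.U i ∩ G.U j).Nonempty → G.U j ⊆ W i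
  /-- the sheets -/
  S : Fin G.n → K → Set Y
  isOpen_S : ∀ i k, IsOpen (S i k)
  inj : ∀ i k, InjOn p (S i k)
  image : ∀ i k, p '' S i k = W i
  union : ∀ i, p ⁻¹' W i = ⋃ k, S i k
  disj : ∀ i, Pairwise (Disjoint on S i)

namespace Sheets

variable {G : GoodCover X A} {K : Type*} (T : Sheets p G K)

theorem U_sub_W (i : Fin G.n) : G.U i ⊆ T.W i := by
  refine T.star i i ?_
  rw [inter_self]
  exact GoodCover.nonempty_U G i

theorem p_mem_W {i : Fin G.n} {k : K} {y : Y} (hy : y ∈ T.S i k) : p y ∈ T.W i := by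
  rw [← T.image i k]
  exact mem_image_of_mem p hy

theorem exists_mem_S {i : Fin G.n} {y : Y} (hy : p y ∈ T.W i) : ∃ k, y ∈ T.S i k := by
  have h1 : y ∈ p ⁻¹' T.W i := hy
  rw [T.union i] at h1
  exact mem_iUnion.1 h1

theorem eq_of_mem {i : Fin G.n} {k l : K} {y : Y} (hk : y ∈ T.S i k) (hl : y ∈ T.S i l) :
    k = l := by
  by_contra hne
  exact Set.disjoint_left.1 (T.disj i hne) hk hl

/-- the lifts of the members of the cover -/
def U (i : Fin G.n) (k : K) : Set Y := T.S i k ∩ p ⁻¹' G.U i

theorem mem_U {i : Fin G.n} {k : K} {y : Y} : y ∈ T.U i k ↔ y ∈ T.S i k ∧ p y ∈ G.U i := Iff.rfl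

theorem isOpen_U (hp : Continuous p) (i : Fin G.n) (k : K) : IsOpen (T.U i k) :=
  (T.isOpen_S i k).inter ((G.isOpen_U i).preimage hp)

theorem injOn_U (i : Fin G.n) (k : K) : InjOn p (T.U i k) := (T.inj i k).mono inter_subset_left

theorem image_U (i : Fin G.n) (k : K) : p '' T.U i k = G.U i := by
  ext x
  constructor
  · rintro ⟨y, hy, rfl⟩
    exact hy.2
  · intro hx
    have h1 : x ∈ p '' T.S i k := by
      rw [T.image i k]
      exact T.U_sub_W i hx
    obtain ⟨y, hy, rfl⟩ := h1
    exact ⟨y, ⟨hy, hx⟩, rfl⟩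

theorem preimage_U (i : Fin G.n) : p ⁻¹' G.U i = ⋃ k, T.U i k := by
  ext y
  rw [mem_iUnion]
  constructor
  · intro hy
    obtain ⟨k, hk⟩ := T.exists_mem_S (T.U_sub_W i hy)
    exact ⟨k, hk, hy⟩
  · rintro ⟨k, hk⟩
    exact hk.2

theorem disj_U (i : Fin G.n) : Pairwise (Disjoint on T.U i) := fun _ _ h =>
  (T.disj i h).mono inter_subset_left inter_subset_left

theorem exists_mem_U (y : Y) : ∃ i k, y ∈ T.U i k := by
  obtain ⟨i, hi⟩ := G.exists_mem_U (p y)
  have h1 : y ∈ p ⁻¹' G.U i := hi
  rw [T.preimage_U i] at h1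
  obtain ⟨k, hk⟩ := mem_iUnion.1 h1
  exact ⟨i, k, hk⟩

theorem nonempty_U (i : Fin G.n) (k : K) : (T.U i k).Nonempty := by
  have h1 := GoodCover.nonempty_U G i
  rw [← T.image_U i k] at h1
  exact h1.of_image

/-- on `S i k` the map `p` is a homeomorphism onto its image: connected sets lift -/
theorem isPreconnected_lift (hp : IsLocalHomeomorph p) {S : Set Y} (hS : IsOpen S)
    (hinj : InjOn p S) {B : Set X} (hB : IsPreconnected B) (hBS : B ⊆ p '' S) :
    IsPreconnected (S ∩ p ⁻¹' B) := by
  rcases B.eq_empty_or_nonempty with rfl | ⟨b, hb⟩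
  · rw [preimage_empty, inter_empty]
    exact isPreconnected_empty
  obtain ⟨y0, -⟩ : (p '' S).Nonempty := ⟨b, hBS hb⟩
  have : Nonempty Y := by
    obtain ⟨y, -, -⟩ := hBS hb
    exact ⟨y⟩
  have h1 : S ∩ p ⁻¹' B = (brOn hp S hS hinj).symm '' B := by
    ext y
    constructor
    · rintro ⟨h1, h2⟩
      exact ⟨p y, h2, (brOn hp S hS hinj).left_inv h1⟩
    · rintro ⟨x, hx, rfl⟩
      have h2 : x ∈ (brOn hp S hS hinj).target := hBS hx
      refine ⟨(brOn hp S hS hinj).map_target h2, ?_⟩
      have h3 := (brOn hp S hS hinj).right_inv h2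
      rw [coe_brOn] at h3
      rw [mem_preimage, h3]
      exact hx
  rw [h1]
  refine hB.image _ ((brOn hp S hS hinj).symm.continuousOn.mono ?_)
  exact hBS

/-- the key consistency property: a lift of `G.U j` which meets `U i k` lies in the sheet
`S i k` -/
theorem U_sub_S (hp : IsLocalHomeomorph p) {i j : Fin G.n} {k l : K}
    (h : (T.U i k ∩ T.U j l).Nonempty) : T.U j l ⊆ T.S i k := by
  obtain ⟨y0, h0, h0'⟩ := h
  have hij : (G.U i ∩ G.U j).Nonempty := ⟨p y0, h0.2, h0'.2⟩
  have hpre : IsPreconnected (T.U j l) := by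
    refine isPreconnected_lift hp (T.isOpen_S j l) (T.inj j l)
      (GoodCover.isPreconnected_U G j) ?_
    rw [T.image j l]
    exact T.U_sub_W j
  have hsub : T.U j l ⊆ T.S i k ∪ ⋃ k' ∈ {k' : K | k' ≠ k}, T.S i k' := by
    intro y hy
    obtain ⟨k', hk'⟩ := T.exists_mem_S (T.star i j hij hy.2)
    by_cases hkk : k' = k
    · left
      rwa [hkk] at hk'
    · right
      exact mem_biUnion (show k' ∈ {k' : K | k' ≠ k} from hkk) hk'
  refine hpre.subset_left_of_subset_union (T.isOpen_S i k)
    (isOpen_biUnion fun k' _ => T.isOpen_S i k') ?_ hsub ⟨y0, h0', h0.1⟩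
  rw [Set.disjoint_left]
  intro y hy hy'
  obtain ⟨k', hk', hy'⟩ := mem_iUnion₂.1 hy'
  exact hk' (T.eq_of_mem hy' hy)

/-- nonempty finite intersections are mapped bijectively onto the intersections of the images -/
theorem image_inter (hp : IsLocalHomeomorph p) {s : Finset (Fin G.n × K)} {a : Fin G.n × K}
    (ha : a ∈ s) (hne : (⋂ b ∈ s, T.U b.1 b.2).Nonempty) :
    p '' (⋂ b ∈ s, T.U b.1 b.2) = ⋂ b ∈ s, G.U b.1 := by
  ext x
  constructor
  · rintro ⟨y, hy, rfl⟩
    simp only [mem_iInter] at hy ⊢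
    exact fun b hb => (hy b hb).2
  · intro hx
    simp only [mem_iInter] at hx
    have h1 : x ∈ p '' T.U a.1 a.2 := by
      rw [T.image_U]
      exact hx a ha
    obtain ⟨y, hy, rfl⟩ := h1
    refine ⟨y, ?_, rfl⟩
    simp only [mem_iInter]
    intro b hb
    obtain ⟨z, hz⟩ := hne
    simp only [mem_iInter] at hz
    have h2 : T.U a.1 a.2 ⊆ T.S b.1 b.2 := T.U_sub_S hp ⟨z, hz b hb, hz a ha⟩
    exact ⟨h2 hy, hx b hb⟩

section chart

variable [Nonempty Y] (hp : IsLocalHomeomorph p)

/-- the branch of `p` on the sheet `S i k` -/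
noncomputable def br (i : Fin G.n) (k : K) : OpenPartialHomeomorph Y X :=
  brOn hp (T.S i k) (T.isOpen_S i k) (T.inj i k)

@[simp] theorem coe_br (i : Fin G.n) (k : K) : (T.br hp i k : Y → X) = p := rfl

@[simp] theorem br_source (i : Fin G.n) (k : K) : (T.br hp i k).source = T.S i k := rfl

theorem br_target (i : Fin G.n) (k : K) : (T.br hp i k).target = T.W i := T.image i k

theorem br_symm_mem {i : Fin G.n} {k : K} {x : X} (hx : x ∈ T.W i) :
    (T.br hp i k).symm x ∈ T.S i k :=
  (T.br hp i k).map_target (by rwa [T.br_target hp])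

theorem p_br_symm {i : Fin G.n} {k : K} {x : X} (hx : x ∈ T.W i) :
    p ((T.br hp i k).symm x) = x :=
  (T.br hp i k).right_inv (by rwa [T.br_target hp])

theorem br_symm_p {i : Fin G.n} {k : K} {y : Y} (hy : y ∈ T.S i k) :
    (T.br hp i k).symm (p y) = y :=
  (T.br hp i k).left_inv hy

/-- the chart of the sheet -/
noncomputable def chart (i : Fin G.n) (k : K) : OpenPartialHomeomorph Y E :=
  (T.br hp i k).trans (G.e i)

theorem chart_apply (i : Fin G.n) (k : K) (y : Y) : T.chart hp i k y = G.e i (p y) := rfl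

theorem chart_symm_apply (i : Fin G.n) (k : K) (z : E) :
    (T.chart hp i k).symm z = (T.br hp i k).symm ((G.e i).symm z) := rfl

theorem chart_source (i : Fin G.n) (k : K) :
    (T.chart hp i k).source = T.S i k ∩ p ⁻¹' (G.e i).source := by
  rw [chart, OpenPartialHomeomorph.trans_source]
  rfl

theorem mem_chart_target {i : Fin G.n} {k : K} {z : E} :
    z ∈ (T.chart hp i k).target ↔ z ∈ (G.e i).target ∧ (G.e i).symm z ∈ T.W i := by
  rw [chart, OpenPartialHomeomorph.trans_target, mem_inter_iff, mem_preimage, T.br_target hp]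

theorem chart_mem_atlas (i : Fin G.n) (k : K) : T.chart hp i k ∈ (pullCS E hp).atlas :=
  ⟨T.br hp i k, G.e i, rfl, G.e_mem i, rfl⟩

theorem U_sub_chart_source {i j : Fin G.n} {k l : K} (h : (T.U i k ∩ T.U j l).Nonempty) :
    T.U j l ⊆ (T.chart hp i k).source := by
  intro y hy
  rw [T.chart_source hp]
  refine ⟨T.U_sub_S hp h hy, ?_⟩
  obtain ⟨y0, h0, h0'⟩ := h
  exact G.sub i j ⟨p y0, h0.2, h0'.2⟩ hy.2

theorem U_sub_chart_source_self (i : Fin G.n) (k : K) : T.U i k ⊆ (T.chart hp i k).source :=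
  T.U_sub_chart_source hp (by rw [inter_self]; exact T.nonempty_U i k)

theorem chart_image {i : Fin G.n} {k : K} (B : Set Y) :
    T.chart hp i k '' B = G.e i '' (p '' B) := by
  rw [image_image]
  rfl

theorem chart_image_U (i : Fin G.n) (k : K) :
    T.chart hp i k '' T.U i k = aball A (G.c i) G.r := by
  rw [T.chart_image hp, T.image_U, G.image_U]

/-- **main property**: nonempty finite intersections lie in the chart of every member and are
mapped onto convex open sets -/
theorem inter_convex {s : Finset (Fin G.n × K)} {a : Fin G.n × K} (ha : a ∈ s)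
    (hne : (⋂ b ∈ s, T.U b.1 b.2).Nonempty) :
    (∀ b ∈ s, T.U b.1 b.2 ⊆ (T.chart hp a.1 a.2).source) ∧
      T.chart hp a.1 a.2 '' (⋂ b ∈ s, T.U b.1 b.2) = G.e a.1 '' (⋂ b ∈ s, G.U b.1) ∧
      Convex ℝ (T.chart hp a.1 a.2 '' ⋂ b ∈ s, T.U b.1 b.2) ∧
      IsOpen (T.chart hp a.1 a.2 '' ⋂ b ∈ s, T.U b.1 b.2) := by
  classical
  have h0 : ∀ b ∈ s, T.U b.1 b.2 ⊆ (T.chart hp a.1 a.2).source := by
    intro b hb
    obtain ⟨y, hy⟩ := hne
    simp only [mem_iInter] at hy
    exact T.U_sub_chart_source hp ⟨y, hy a ha, hy b hb⟩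
  have h1 : T.chart hp a.1 a.2 '' (⋂ b ∈ s, T.U b.1 b.2) = G.e a.1 '' (⋂ b ∈ s, G.U b.1) := by
    rw [T.chart_image hp, T.image_inter hp ha hne]
  have h2 : (⋂ b ∈ s, G.U b.1) = ⋂ j ∈ s.image Prod.fst, G.U j := by
    ext x
    simp only [mem_iInter, Finset.mem_image]
    constructor
    · rintro h j ⟨b, hb, rfl⟩
      exact h b hb
    · intro h b hb
      exact h b.1 ⟨b, hb, rfl⟩
  have h3 : (⋂ j ∈ s.image Prod.fst, G.U j).Nonempty := by
    rw [← h2, ← T.image_inter hp ha hne]
    exact hne.image p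
  have h4 := G.inter_convex (s := s.image Prod.fst) (i := a.1)
    (Finset.mem_image_of_mem Prod.fst ha) h3
  refine ⟨h0, h1, ?_, ?_⟩
  · rw [h1, h2]
    exact h4.2.1
  · rw [h1, h2]
    exact h4.2.2

end chart

end Sheets

end good

end Vale.Agent.P267.H431
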